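import Mathlib
import Crest.Prelude.Def_FinProb
set_option autoImplicit false
set_option linter.unusedSectionVars false
open Finset

namespace Crest.Agent.SymInf

variable {ι : Type*} [Fintype ι] [DecidableEq ι]

/-- the weight of an outcome -/
noncomputable def W (p : ℝ) (ω : ι → Bool) : ℝ := ∏ i, if ω i = true then p else 1 - p

/-- replace the coordinates in `T` of `x` by those of `y` -/
def mg (T : Finset ι) (y x : ι → Bool) : ι → Bool := fun i => if i ∈ T then y i else x i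

/-- average over the coordinates in `T` -/
noncomputable def Av (p : ℝ) (T : Finset ι) (F : (ι → Bool) → ℝ) : (ι → Bool) → ℝ :=
  fun x => ∑ y, W p y * F (mg T y x)

/-- expectation -/
noncomputable def Ex (p : ℝ) (F : (ι → Bool) → ℝ) : ℝ := ∑ y, W p y * F y

/-- `φ` does not depend on the coordinates in `T` -/
def Ind (T : Finset ι) (φ : (ι → Bool) → ℝ) : Prop := ∀ x y, φ (mg T y x) = φ x

lemma W_nonneg {p : ℝ} (h0 : 0 ≤ p) (h1 : p ≤ 1) (ω : ι → Bool) : 0 ≤ W p ω := by
  unfold W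
  apply Finset.prod_nonneg
  intro i _
  split_ifs
  · exact h0
  · linarith

lemma W_pos {p : ℝ} (h0 : 0 < p) (h1 : p < 1) (ω : ι → Bool) : 0 < W p ω := by
  unfold W
  apply Finset.prod_pos
  intro i _
  split_ifs
  · exact h0
  · linarith

lemma sum_W (p : ℝ) : ∑ y : ι → Bool, W p y = 1 := by
  unfold W
  have h := Finset.prod_univ_sum (t := fun _ : ι => (Finset.univ : Finset Bool))
    (f := fun _ b => if b = true then p else 1 - p)
  rw [Fintype.piFinset_univ] at h
  rw [← h]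
  simp

/-- swapping the coordinates in `T` between two outcomes -/
def swapEquiv (T : Finset ι) : (ι → Bool) × (ι → Bool) ≃ (ι → Bool) × (ι → Bool) where
  toFun q := (mg T q.2 q.1, mg T q.1 q.2)
  invFun q := (mg T q.2 q.1, mg T q.1 q.2)
  left_inv q := by
    ext i <;> by_cases h : i ∈ T <;> simp [mg, h]
  right_inv q := by
    ext i <;> by_cases h : i ∈ T <;> simp [mg, h]

lemma W_swap (p : ℝ) (T : Finset ι) (x y : ι → Bool) :
    W p (mg T y x) * W p (mg T x y) = W p x * W p y := by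
  unfold W
  rw [← Finset.prod_mul_distrib, ← Finset.prod_mul_distrib]
  refine Finset.prod_congr rfl fun i _ => ?_
  by_cases h : i ∈ T
  · simp only [mg, h, if_true]
    rw [mul_comm]
  · simp only [mg, h, if_false]

theorem Ex_Av (p : ℝ) (T : Finset ι) (F : (ι → Bool) → ℝ) : Ex p (Av p T F) = Ex p F := by
  unfold Ex Av
  calc ∑ x, W p x * ∑ y, W p y * F (mg T y x)
      = ∑ q : (ι → Bool) × (ι → Bool), W p q.1 * W p q.2 * F (mg T q.2 q.1) := by
        rw [Fintype.sum_prod_type]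
        refine Finset.sum_congr rfl fun x _ => ?_
        rw [Finset.mul_sum]
        refine Finset.sum_congr rfl fun y _ => ?_
        ring
    _ = ∑ q : (ι → Bool) × (ι → Bool), W p q.1 * W p q.2 * F q.1 := by
        refine Fintype.sum_equiv (swapEquiv T) _ _ fun q => ?_
        simp only [swapEquiv, Equiv.coe_fn_mk]
        rw [W_swap]
    _ = ∑ x, W p x * F x := by
        rw [Fintype.sum_prod_type]
        refine Finset.sum_congr rfl fun x _ => ?_
        simp only
        calc ∑ y, W p x * W p y * F x = W p x * F x * ∑ y, W p y := by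
              rw [Finset.mul_sum]
              refine Finset.sum_congr rfl fun y _ => ?_
              ring
          _ = _ := by rw [sum_W, mul_one]

lemma mg_mg_self (T : Finset ι) (x y z : ι → Bool) : mg T y (mg T z x) = mg T y x := by
  ext i; by_cases h : i ∈ T <;> simp [mg, h]

lemma mg_mg (T T' : Finset ι) (x y z : ι → Bool) :
    mg T' z (mg T y x) = mg (T ∪ T') (mg T' z y) x := by
  ext i
  by_cases h : i ∈ T <;> by_cases h' : i ∈ T' <;> simp [mg, h, h']

theorem Av_Av (p : ℝ) (T T' : Finset ι) (F : (ι → Bool) → ℝ) :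
    Av p T (Av p T' F) = Av p (T ∪ T') F := by
  funext x
  have h := Ex_Av p T' (fun y => F (mg (T ∪ T') y x))
  unfold Ex Av at h
  unfold Av
  rw [← h]
  refine Finset.sum_congr rfl fun y _ => ?_
  congr 1
  refine Finset.sum_congr rfl fun z _ => ?_
  rw [mg_mg]

lemma mg_empty (x y : ι → Bool) : mg (∅ : Finset ι) y x = x := by
  ext i; simp [mg]

lemma mg_univ (x y : ι → Bool) : mg (Finset.univ : Finset ι) y x = y := by
  ext i; simp [mg]

@[simp] lemma Av_empty (p : ℝ) (F : (ι → Bool) → ℝ) : Av p ∅ F = F := by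
  funext x
  unfold Av
  simp only [mg_empty]
  rw [← Finset.sum_mul, sum_W, one_mul]

lemma Av_univ (p : ℝ) (F : (ι → Bool) → ℝ) (x : ι → Bool) : Av p Finset.univ F x = Ex p F := by
  unfold Av Ex
  simp only [mg_univ]

lemma Av_comm (p : ℝ) (T T' : Finset ι) (F : (ι → Bool) → ℝ) :
    Av p T (Av p T' F) = Av p T' (Av p T F) := by
  rw [Av_Av, Av_Av, Finset.union_comm]

lemma Av_idem (p : ℝ) (T : Finset ι) (F : (ι → Bool) → ℝ) : Av p T (Av p T F) = Av p T F := by
  rw [Av_Av, Finset.union_idempotent]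

lemma Av_of_subset (p : ℝ) {T T' : Finset ι} (h : T ⊆ T') (F : (ι → Bool) → ℝ) :
    Av p T (Av p T' F) = Av p T' F := by
  rw [Av_Av, Finset.union_eq_right.2 h]

lemma Av_of_subset' (p : ℝ) {T T' : Finset ι} (h : T ⊆ T') (F : (ι → Bool) → ℝ) :
    Av p T' (Av p T F) = Av p T' F := by
  rw [Av_Av, Finset.union_eq_left.2 h]

lemma Av_add (p : ℝ) (T : Finset ι) (F G : (ι → Bool) → ℝ) :
    Av p T (fun x => F x + G x) = fun x => Av p T F x + Av p T G x := by
  funext x
  unfold Av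
  rw [← Finset.sum_add_distrib]
  refine Finset.sum_congr rfl fun y _ => by ring

lemma Av_sub (p : ℝ) (T : Finset ι) (F G : (ι → Bool) → ℝ) :
    Av p T (fun x => F x - G x) = fun x => Av p T F x - Av p T G x := by
  funext x
  unfold Av
  rw [← Finset.sum_sub_distrib]
  refine Finset.sum_congr rfl fun y _ => by ring

lemma Av_smul (p : ℝ) (T : Finset ι) (c : ℝ) (F : (ι → Bool) → ℝ) :
    Av p T (fun x => c * F x) = fun x => c * Av p T F x := by
  funext x
  unfold Av
  rw [Finset.mul_sum]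
  refine Finset.sum_congr rfl fun y _ => by ring

lemma Av_const (p : ℝ) (T : Finset ι) (c : ℝ) : Av p T (fun _ => c) = fun _ => c := by
  funext x
  unfold Av
  rw [← Finset.sum_mul, sum_W, one_mul]

lemma Av_sum {κ : Type*} (p : ℝ) (T : Finset ι) (s : Finset κ) (F : κ → (ι → Bool) → ℝ) :
    Av p T (fun x => ∑ k ∈ s, F k x) = fun x => ∑ k ∈ s, Av p T (F k) x := by
  funext x
  unfold Av
  rw [Finset.sum_comm]
  refine Finset.sum_congr rfl fun y _ => ?_
  rw [Finset.mul_sum]

lemma Ex_add (p : ℝ) (F G : (ι → Bool) → ℝ) :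
    Ex p (fun x => F x + G x) = Ex p F + Ex p G := by
  unfold Ex
  rw [← Finset.sum_add_distrib]
  refine Finset.sum_congr rfl fun y _ => by ring

lemma Ex_sub (p : ℝ) (F G : (ι → Bool) → ℝ) :
    Ex p (fun x => F x - G x) = Ex p F - Ex p G := by
  unfold Ex
  rw [← Finset.sum_sub_distrib]
  refine Finset.sum_congr rfl fun y _ => by ring

lemma Ex_smul (p : ℝ) (c : ℝ) (F : (ι → Bool) → ℝ) :
    Ex p (fun x => c * F x) = c * Ex p F := by
  unfold Ex
  rw [Finset.mul_sum]
  refine Finset.sum_congr rfl fun y _ => by ring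

lemma Ex_const (p : ℝ) (c : ℝ) : Ex p (fun _ : ι → Bool => c) = c := by
  unfold Ex
  rw [← Finset.sum_mul, sum_W, one_mul]

lemma Ex_sum {κ : Type*} (p : ℝ) (s : Finset κ) (F : κ → (ι → Bool) → ℝ) :
    Ex p (fun x => ∑ k ∈ s, F k x) = ∑ k ∈ s, Ex p (F k) := by
  unfold Ex
  rw [Finset.sum_comm]
  refine Finset.sum_congr rfl fun y _ => ?_
  rw [Finset.mul_sum]

section mono
variable {p : ℝ} (h0 : 0 ≤ p) (h1 : p ≤ 1)
include h0 h1

lemma Av_mono (T : Finset ι) {F G : (ι → Bool) → ℝ} (h : ∀ x, F x ≤ G x) (x : ι → Bool) :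
    Av p T F x ≤ Av p T G x := by
  unfold Av
  exact Finset.sum_le_sum fun y _ => mul_le_mul_of_nonneg_left (h _) (W_nonneg h0 h1 y)

lemma Av_nonneg (T : Finset ι) {F : (ι → Bool) → ℝ} (h : ∀ x, 0 ≤ F x) (x : ι → Bool) :
    0 ≤ Av p T F x := by
  unfold Av
  exact Finset.sum_nonneg fun y _ => mul_nonneg (W_nonneg h0 h1 y) (h _)

lemma Ex_mono {F G : (ι → Bool) → ℝ} (h : ∀ x, F x ≤ G x) : Ex p F ≤ Ex p G := by
  unfold Ex
  exact Finset.sum_le_sum fun y _ => mul_le_mul_of_nonneg_left (h _) (W_nonneg h0 h1 y)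

lemma Ex_nonneg {F : (ι → Bool) → ℝ} (h : ∀ x, 0 ≤ F x) : 0 ≤ Ex p F := by
  unfold Ex
  exact Finset.sum_nonneg fun y _ => mul_nonneg (W_nonneg h0 h1 y) (h _)

lemma abs_Av_le (T : Finset ι) (F : (ι → Bool) → ℝ) (x : ι → Bool) :
    |Av p T F x| ≤ Av p T (fun x => |F x|) x := by
  unfold Av
  refine (Finset.abs_sum_le_sum_abs _ _).trans (Finset.sum_le_sum fun y _ => ?_)
  rw [abs_mul, abs_of_nonneg (W_nonneg h0 h1 y)]

lemma Av_mul_sq_le (T : Finset ι) (F G : (ι → Bool) → ℝ) (x : ι → Bool) :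
    (Av p T (fun x => F x * G x) x) ^ 2 ≤
      Av p T (fun x => F x ^ 2) x * Av p T (fun x => G x ^ 2) x := by
  unfold Av
  have h := Finset.sum_mul_sq_le_sq_mul_sq Finset.univ
    (fun y => Real.sqrt (W p y) * F (mg T y x)) (fun y => Real.sqrt (W p y) * G (mg T y x))
  have e1 : ∀ y, Real.sqrt (W p y) * F (mg T y x) * (Real.sqrt (W p y) * G (mg T y x))
      = W p y * (F (mg T y x) * G (mg T y x)) := by
    intro y
    have := Real.mul_self_sqrt (W_nonneg h0 h1 y)
    calc _ = (Real.sqrt (W p y) * Real.sqrt (W p y)) * (F (mg T y x) * G (mg T y x)) := by ring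
      _ = _ := by rw [this]
  have e2 : ∀ (H : (ι → Bool) → ℝ) y, (Real.sqrt (W p y) * H (mg T y x)) ^ 2
      = W p y * H (mg T y x) ^ 2 := by
    intro H y
    rw [mul_pow, Real.sq_sqrt (W_nonneg h0 h1 y)]
  simp only [e1, e2] at h
  exact h

end mono

lemma Ind_Av (p : ℝ) {T T' : Finset ι} (h : T' ⊆ T) (F : (ι → Bool) → ℝ) :
    Ind T' (Av p T F) := by
  intro x y
  unfold Av
  refine Finset.sum_congr rfl fun z _ => ?_
  congr 2
  ext i
  by_cases h1 : i ∈ T
  · simp [mg, h1]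
  · have : i ∉ T' := fun h2 => h1 (h h2)
    simp [mg, h1, this]

lemma Ind.mono {T T' : Finset ι} {φ : (ι → Bool) → ℝ} (h : Ind T φ) (hT : T' ⊆ T) : Ind T' φ := by
  intro x y
  have h1 := h x (mg T' y x)
  have h2 : mg T (mg T' y x) x = mg T' y x := by
    ext i
    by_cases h3 : i ∈ T
    · simp [mg, h3]
    · have : i ∉ T' := fun h2 => h3 (hT h2)
      simp [mg, h3, this]
  rw [h2] at h1
  exact h1

lemma Av_mul_left (p : ℝ) {T : Finset ι} {φ : (ι → Bool) → ℝ} (h : Ind T φ)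
    (F : (ι → Bool) → ℝ) : Av p T (fun x => φ x * F x) = fun x => φ x * Av p T F x := by
  funext x
  unfold Av
  rw [Finset.mul_sum]
  refine Finset.sum_congr rfl fun y _ => ?_
  simp only [h x y]
  ring

lemma Av_of_Ind (p : ℝ) {T : Finset ι} {φ : (ι → Bool) → ℝ} (h : Ind T φ) : Av p T φ = φ := by
  funext x
  unfold Av
  calc ∑ y, W p y * φ (mg T y x) = ∑ y, W p y * φ x := by
        refine Finset.sum_congr rfl fun y _ => ?_
        rw [h x y]
    _ = φ x := by rw [← Finset.sum_mul, sum_W, one_mul]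

/-- squared norm -/
noncomputable def N2 (p : ℝ) (F : (ι → Bool) → ℝ) : ℝ := Ex p (fun x => F x ^ 2)

lemma N2_nonneg {p : ℝ} (h0 : 0 ≤ p) (h1 : p ≤ 1) (F : (ι → Bool) → ℝ) : 0 ≤ N2 p F :=
  Ex_nonneg h0 h1 fun _ => sq_nonneg _

lemma Ex_mul_Av (p : ℝ) (T : Finset ι) (F G : (ι → Bool) → ℝ) :
    Ex p (fun x => F x * Av p T G x) = Ex p (fun x => Av p T F x * Av p T G x) := by
  have h1 := Ex_Av p T (fun x => Av p T G x * F x)
  rw [Av_mul_left p (Ind_Av p (Finset.Subset.refl T) G)] at h1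
  calc Ex p (fun x => F x * Av p T G x) = Ex p (fun x => Av p T G x * F x) := by
        congr 1; funext x; ring
    _ = Ex p (fun x => Av p T G x * Av p T F x) := h1.symm
    _ = _ := by congr 1; funext x; ring

theorem pythag (p : ℝ) (T : Finset ι) (F : (ι → Bool) → ℝ) :
    N2 p F = N2 p (Av p T F) + N2 p (fun x => F x - Av p T F x) := by
  have h := Ex_mul_Av p T F F
  unfold N2
  have e : (fun x => (F x - Av p T F x) ^ 2) = fun x => F x ^ 2 - 2 * (F x * Av p T F x)
      + (Av p T F x) ^ 2 := by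
    funext x; ring
  rw [e, Ex_add, Ex_sub, Ex_smul, h]
  have e2 : Ex p (fun x => Av p T F x * Av p T F x) = Ex p (fun x => Av p T F x ^ 2) := by
    congr 1; funext x; ring
  rw [e2]
  ring

lemma N2_Av_le {p : ℝ} (h0 : 0 ≤ p) (h1 : p ≤ 1) (T : Finset ι) (F : (ι → Bool) → ℝ) :
    N2 p (Av p T F) ≤ N2 p F := by
  rw [pythag p T F]
  have := N2_nonneg h0 h1 (fun x => F x - Av p T F x)
  linarith

lemma N2_sub_Av_le {p : ℝ} (h0 : 0 ≤ p) (h1 : p ≤ 1) (T : Finset ι) (F : (ι → Bool) → ℝ) :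
    N2 p (fun x => F x - Av p T F x) ≤ N2 p F := by
  have := pythag p T F
  have := N2_nonneg h0 h1 (Av p T F)
  linarith

/-- permuting the coordinates -/
def Rl (π : Equiv.Perm ι) (F : (ι → Bool) → ℝ) : (ι → Bool) → ℝ := fun x => F (fun i => x (π i))

lemma W_perm (p : ℝ) (π : Equiv.Perm ι) (x : ι → Bool) : W p (fun i => x (π i)) = W p x := by
  unfold W
  exact Equiv.prod_comp π (fun i => if x i = true then p else 1 - p)

lemma Ex_Rl (p : ℝ) (π : Equiv.Perm ι) (F : (ι → Bool) → ℝ) : Ex p (Rl π F) = Ex p F := by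
  unfold Ex Rl
  refine Fintype.sum_equiv (Equiv.arrowCongr π.symm (Equiv.refl Bool)) _ _ fun x => ?_
  have e : (Equiv.arrowCongr π.symm (Equiv.refl Bool)) x = fun i => x (π i) := by
    funext i; simp [Equiv.arrowCongr]
  rw [e, W_perm]

lemma N2_Rl (p : ℝ) (π : Equiv.Perm ι) (F : (ι → Bool) → ℝ) : N2 p (Rl π F) = N2 p F :=
  Ex_Rl p π (fun x => F x ^ 2)

lemma Av_Rl (p : ℝ) (π : Equiv.Perm ι) (T : Finset ι) (F : (ι → Bool) → ℝ) :
    Av p (T.map π.toEmbedding) (Rl π F) = Rl π (Av p T F) := by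
  funext x
  unfold Av Rl
  refine Fintype.sum_equiv (Equiv.arrowCongr π.symm (Equiv.refl Bool)) _ _ fun y => ?_
  have e : (Equiv.arrowCongr π.symm (Equiv.refl Bool)) y = fun i => y (π i) := by
    funext i; simp [Equiv.arrowCongr]
  rw [e, W_perm]
  congr 2
  funext i
  unfold mg
  by_cases h : i ∈ T
  · have : π i ∈ T.map π.toEmbedding := Finset.mem_map_of_mem _ h
    simp [h]
  · have : π i ∉ T.map π.toEmbedding := by simpa using h
    simp [h]

end Crest.Agent.SymInf
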