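import Mathlib
import Crest.Agent.SymInf.Basic
set_option autoImplicit false
set_option linter.unusedSectionVars false
open Finset

namespace Crest.Agent.SymInf

/-- log-Sobolev constant -/
noncomputable def cS (p : ℝ) : ℝ := 10 + 8 * Real.log (1 / (p * (1 - p)))

lemma ent_aux {p : ℝ} (h0 : 0 < p) (h2 : p ≤ 1 / 2) {s t : ℝ} (hs : 0 ≤ s) (ht : 0 ≤ t) :
    p * (t ^ 2 * Real.log (t ^ 2)) + (1 - p) * (s ^ 2 * Real.log (s ^ 2))
      - (p * t ^ 2 + (1 - p) * s ^ 2) * Real.log (p * t ^ 2 + (1 - p) * s ^ 2)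
      ≤ p * (t - s) ^ 2 * (5 + 4 * Real.log (1 / p)) := by
  have hq : 0 < 1 - p := by linarith
  have hlp : 0 ≤ Real.log (1 / p) := Real.log_nonneg (by rw [le_div_iff₀ h0]; linarith)
  set A := p * t ^ 2 + (1 - p) * s ^ 2 with hA
  by_cases hts : t ≤ 2 * s
  · -- close case
    by_cases hs0 : s = 0
    · have ht0 : t = 0 := by rw [hs0] at hts; linarith
      simp [hA, hs0, ht0]
    have hsp : 0 < s := lt_of_le_of_ne hs (Ne.symm hs0)
    have hAp : 0 < A := by
      rw [hA]
      positivity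
    -- A log A ≥ A log s² + A - s²
    have k1 : A * Real.log (s ^ 2) + A - s ^ 2 ≤ A * Real.log A := by
      have h3 : Real.log (s ^ 2 / A) ≤ s ^ 2 / A - 1 := Real.log_le_sub_one_of_pos (by positivity)
      rw [Real.log_div (by positivity) hAp.ne'] at h3
      have h4 := mul_le_mul_of_nonneg_left h3 hAp.le
      have h5 : A * (s ^ 2 / A - 1) = s ^ 2 - A := by field_simp
      rw [h5] at h4
      linarith
    have k2 : t ^ 2 * Real.log (t ^ 2) ≤ t ^ 2 * Real.log (s ^ 2) + t ^ 2 * (2 * (t / s - 1)) := by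
      by_cases ht0 : t = 0
      · simp [ht0]
      have htp : 0 < t := lt_of_le_of_ne ht (Ne.symm ht0)
      have h3 : Real.log (t / s) ≤ t / s - 1 := Real.log_le_sub_one_of_pos (by positivity)
      rw [Real.log_div ht0 hs0] at h3
      rw [Real.log_pow, Real.log_pow]
      push_cast
      nlinarith [mul_le_mul_of_nonneg_left h3 (sq_nonneg t)]
    have k3 : t ^ 2 * (2 * (t / s - 1)) - t ^ 2 + s ^ 2 = (t - s) ^ 2 * (2 * (t / s) + 1) := by
      field_simp
      ring
    have k4 : t / s ≤ 2 := by rw [div_le_iff₀ hsp]; linarith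
    have k5 : (t - s) ^ 2 * (2 * (t / s) + 1) ≤ (t - s) ^ 2 * 5 := by
      gcongr
      linarith
    have k6 : p * (t ^ 2 * Real.log (t ^ 2)) ≤ p * (t ^ 2 * Real.log (s ^ 2) + t ^ 2 * (2 * (t / s - 1))) := by
      gcongr
    have k7 : p * (t ^ 2 * (2 * (t / s - 1)) - t ^ 2 + s ^ 2) ≤ p * ((t - s) ^ 2 * 5) := by
      rw [k3]; gcongr
    have k8 : 0 ≤ p * (t - s) ^ 2 * (4 * Real.log (1 / p)) := by positivity
    have e1 : A * Real.log (s ^ 2) = p * (t ^ 2 * Real.log (s ^ 2)) + (1 - p) * (s ^ 2 * Real.log (s ^ 2)) := by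
      rw [hA]; ring
    have e2 : A - s ^ 2 = p * t ^ 2 - p * s ^ 2 := by rw [hA]; ring
    nlinarith
  · push Not at hts
    have htp : 0 < t := by linarith
    have hAp : 0 < A := by
      rw [hA]
      positivity
    have h3 : p * t ^ 2 ≤ A := by
      rw [hA]
      have : 0 ≤ (1 - p) * s ^ 2 := by positivity
      linarith
    have h4 : s ^ 2 ≤ A := by
      have : s ^ 2 ≤ t ^ 2 := by nlinarith
      rw [hA]
      nlinarith
    have k1 : t ^ 2 * Real.log (t ^ 2) ≤ t ^ 2 * (Real.log A + Real.log (1 / p)) := by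
      have : Real.log (t ^ 2) ≤ Real.log A + Real.log (1 / p) := by
        rw [← Real.log_mul hAp.ne' (by positivity)]
        apply Real.log_le_log (by positivity)
        rw [mul_one_div, le_div_iff₀ h0]
        linarith
      gcongr
    have k2 : s ^ 2 * Real.log (s ^ 2) ≤ s ^ 2 * Real.log A := by
      by_cases hs0 : s = 0
      · simp [hs0]
      have hsp : 0 < s := lt_of_le_of_ne hs (Ne.symm hs0)
      have : Real.log (s ^ 2) ≤ Real.log A := Real.log_le_log (by positivity) h4
      gcongr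
    have k3 : t ^ 2 ≤ 4 * (t - s) ^ 2 := by nlinarith
    have k4 : p * (t ^ 2 * Real.log (t ^ 2)) ≤ p * (t ^ 2 * (Real.log A + Real.log (1 / p))) := by gcongr
    have k5 : (1 - p) * (s ^ 2 * Real.log (s ^ 2)) ≤ (1 - p) * (s ^ 2 * Real.log A) := by gcongr
    have k6 : p * (t ^ 2 * Real.log (1 / p)) ≤ p * ((4 * (t - s) ^ 2) * Real.log (1 / p)) := by gcongr
    have k7 : 0 ≤ p * (t - s) ^ 2 * 5 := by positivity
    have e1 : A * Real.log A = p * (t ^ 2 * Real.log A) + (1 - p) * (s ^ 2 * Real.log A) := by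
      rw [hA]; ring
    nlinarith

lemma log_mono1 {p : ℝ} (h0 : 0 < p) (h1 : p < 1) :
    Real.log (1 / p) ≤ Real.log (1 / (p * (1 - p))) := by
  have hq : 0 < 1 - p := by linarith
  apply Real.log_le_log (by positivity)
  rw [div_le_div_iff₀ h0 (by positivity)]
  nlinarith

theorem two_point_ent {p : ℝ} (h0 : 0 < p) (h1 : p < 1) {a b : ℝ} (ha : 0 ≤ a) (hb : 0 ≤ b) :
    p * (a * Real.log a) + (1 - p) * (b * Real.log b)
      - (p * a + (1 - p) * b) * Real.log (p * a + (1 - p) * b)
      ≤ cS p * (p * (1 - p) * (Real.sqrt a - Real.sqrt b) ^ 2) := by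
  have hq : 0 < 1 - p := by linarith
  have sa := Real.sq_sqrt ha
  have sb := Real.sq_sqrt hb
  have na := Real.sqrt_nonneg a
  have nb := Real.sqrt_nonneg b
  rcases le_total p (1 / 2) with hp | hp
  · have h := ent_aux h0 hp nb na
    rw [sa, sb] at h
    refine h.trans ?_
    have l1 := log_mono1 h0 h1
    have hlp : 0 ≤ Real.log (1 / p) := Real.log_nonneg (by rw [le_div_iff₀ h0]; linarith)
    have n := sq_nonneg (Real.sqrt a - Real.sqrt b)
    unfold cS
    have k : (5 + 4 * Real.log (1 / p)) ≤ (10 + 8 * Real.log (1 / (p * (1 - p)))) * (1 - p) := by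
      nlinarith
    calc p * (Real.sqrt a - Real.sqrt b) ^ 2 * (5 + 4 * Real.log (1 / p))
        ≤ p * (Real.sqrt a - Real.sqrt b) ^ 2 * ((10 + 8 * Real.log (1 / (p * (1 - p)))) * (1 - p)) := by
          gcongr
      _ = _ := by ring
  · have hp' : 1 - p ≤ 1 / 2 := by linarith
    have h := ent_aux hq hp' na nb
    rw [sa, sb] at h
    have e : 1 - (1 - p) = p := by ring
    rw [e] at h
    have l1 := log_mono1 hq (by linarith : 1 - p < 1)
    rw [e] at l1
    have hlp : 0 ≤ Real.log (1 / (1 - p)) := Real.log_nonneg (by rw [le_div_iff₀ hq]; linarith)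
    have n := sq_nonneg (Real.sqrt a - Real.sqrt b)
    have e3 : (Real.sqrt b - Real.sqrt a) ^ 2 = (Real.sqrt a - Real.sqrt b) ^ 2 := by ring
    have e4 : (1 - p) * b + p * a = p * a + (1 - p) * b := by ring
    rw [e3, e4] at h
    unfold cS
    have e5 : p * (1 - p) = (1 - p) * p := by ring
    have k : (5 + 4 * Real.log (1 / (1 - p))) ≤ (10 + 8 * Real.log (1 / (p * (1 - p)))) * p := by
      rw [e5]
      nlinarith
    calc p * (a * Real.log a) + (1 - p) * (b * Real.log b)
      - (p * a + (1 - p) * b) * Real.log (p * a + (1 - p) * b)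
        ≤ (1 - p) * (Real.sqrt a - Real.sqrt b) ^ 2 * (5 + 4 * Real.log (1 / (1 - p))) := by linarith
      _ ≤ (1 - p) * (Real.sqrt a - Real.sqrt b) ^ 2 * ((10 + 8 * Real.log (1 / (p * (1 - p)))) * p) := by
          gcongr
      _ = _ := by ring

/-- the entropy like functional -/
noncomputable def Psi (a b : ℝ) : ℝ := a * (Real.log a - 2 * Real.log b)

theorem two_point_Psi {p : ℝ} (h0 : 0 < p) (h1 : p < 1) {a1 a0 b1 b0 : ℝ} (ha1 : 0 ≤ a1)
    (ha0 : 0 ≤ a0) (hb1 : 0 ≤ b1) (hb0 : 0 ≤ b0) (h1' : b1 = 0 → a1 = 0) (h0' : b0 = 0 → a0 = 0) :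
    Psi (p * a1 + (1 - p) * a0) (p * b1 + (1 - p) * b0)
      ≤ p * Psi a1 b1 + (1 - p) * Psi a0 b0
        + cS p * (p * (1 - p) * (Real.sqrt a1 - Real.sqrt a0) ^ 2) := by
  have hq : 0 < 1 - p := by linarith
  have hE := two_point_ent h0 h1 ha1 ha0
  set A := p * a1 + (1 - p) * a0 with hA
  set B := p * b1 + (1 - p) * b0 with hB
  by_cases hA0 : A = 0
  · have z1 : a1 = 0 := by
      have : 0 ≤ (1 - p) * a0 := by positivity
      have h2 : p * a1 ≤ 0 := by linarith
      nlinarith
    have z0 : a0 = 0 := by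
      have h2 : (1 - p) * a0 ≤ 0 := by rw [hA, z1] at hA0; linarith
      nlinarith
    rw [hA0]
    simp [Psi, z1, z0]
  have hAp : 0 < A := lt_of_le_of_ne (by positivity) (Ne.symm hA0)
  have hBp : 0 < B := by
    by_contra hcon
    have hB0 : B ≤ 0 := not_lt.1 hcon
    have z1 : b1 = 0 := by
      have : 0 ≤ (1 - p) * b0 := by positivity
      nlinarith
    have z0 : b0 = 0 := by
      have : 0 ≤ p * b1 := by positivity
      nlinarith
    apply hA0
    rw [hA, h1' z1, h0' z0]
    ring
  -- log sum inequality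
  have key : ∀ a b : ℝ, 0 ≤ a → 0 ≤ b → (b = 0 → a = 0) →
      a * (Real.log b - Real.log a) ≤ a * (Real.log B - Real.log A) + (b * (A / B) - a) := by
    intro a b ha hb hab
    by_cases ha0 : a = 0
    · rw [ha0]
      have : 0 ≤ b * (A / B) := by positivity
      linarith
    have hap : 0 < a := lt_of_le_of_ne ha (Ne.symm ha0)
    have hbp : 0 < b := lt_of_le_of_ne hb (fun h => ha0 (hab h.symm))
    have h3 : Real.log ((b * A) / (a * B)) ≤ (b * A) / (a * B) - 1 :=
      Real.log_le_sub_one_of_pos (by positivity)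
    rw [Real.log_div (by positivity) (by positivity), Real.log_mul hbp.ne' hAp.ne',
      Real.log_mul hap.ne' hBp.ne'] at h3
    have h4 := mul_le_mul_of_nonneg_left h3 hap.le
    have h5 : a * (b * A / (a * B) - 1) = b * (A / B) - a := by
      field_simp
    rw [h5] at h4
    linarith
  have k1 := key a1 b1 ha1 hb1 h1'
  have k0 := key a0 b0 ha0 hb0 h0'
  have k2 := mul_le_mul_of_nonneg_left k1 h0.le
  have k3 := mul_le_mul_of_nonneg_left k0 hq.le
  have e1 : p * (a1 * (Real.log B - Real.log A) + (b1 * (A / B) - a1))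
      + (1 - p) * (a0 * (Real.log B - Real.log A) + (b0 * (A / B) - a0))
      = A * (Real.log B - Real.log A) := by
    have : p * b1 * (A / B) + (1 - p) * b0 * (A / B) = A := by
      rw [← add_mul, ← hB]
      field_simp
    calc _ = A * (Real.log B - Real.log A) + ((p * b1 * (A / B) + (1 - p) * b0 * (A / B)) - A) := by
          rw [hA]; ring
      _ = _ := by rw [this]; ring
  have k4 : p * (a1 * (Real.log b1 - Real.log a1)) + (1 - p) * (a0 * (Real.log b0 - Real.log a0))
      ≤ A * (Real.log B - Real.log A) := by linarith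
  unfold Psi
  have e2 : A * (Real.log A - 2 * Real.log B) = A * Real.log A - 2 * (A * Real.log B) := by ring
  have e3 : p * (a1 * (Real.log a1 - 2 * Real.log b1)) + (1 - p) * (a0 * (Real.log a0 - 2 * Real.log b0))
      = -(p * (a1 * Real.log a1) + (1 - p) * (a0 * Real.log a0))
        - 2 * (p * (a1 * (Real.log b1 - Real.log a1)) + (1 - p) * (a0 * (Real.log b0 - Real.log a0))) := by
    ring
  rw [e2, e3]
  linarith

lemma Psi_lower {k K a b : ℝ} (hk : 0 < k) (hK : 1 ≤ K) (ha : 0 ≤ a) (hb : 0 ≤ b)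
    (hba : b ^ 2 ≤ a) (hb0 : b = 0 → a = 0) (hak : a * k ≤ 1 / 4) :
    2 * Real.log K * (a - K / (2 * Real.sqrt k) * b) ≤ Psi a b := by
  have hsk : 0 < Real.sqrt k := Real.sqrt_pos.2 hk
  have hlK : 0 ≤ Real.log K := Real.log_nonneg hK
  by_cases ha0 : a = 0
  · rw [ha0] at hba
    have : b = 0 := by
      have := sq_nonneg b
      have h2 : b ^ 2 = 0 := le_antisymm hba this
      simpa using h2
    simp [ha0, this, Psi]
  have hap : 0 < a := lt_of_le_of_ne ha (Ne.symm ha0)
  have hbp : 0 < b := lt_of_le_of_ne hb (fun h => ha0 (hb0 h.symm))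
  have hnn : 0 ≤ Psi a b := by
    unfold Psi
    have : 2 * Real.log b ≤ Real.log a := by
      rw [show (2 : ℝ) * Real.log b = Real.log (b ^ 2) by rw [Real.log_pow]; norm_num]
      exact Real.log_le_log (by positivity) hba
    exact mul_nonneg ha (by linarith)
  by_cases hc : K ^ 2 * b ^ 2 ≤ a
  · have h3 : 2 * Real.log K ≤ Real.log a - 2 * Real.log b := by
      have : Real.log (K ^ 2 * b ^ 2) ≤ Real.log a := Real.log_le_log (by positivity) hc
      rw [Real.log_mul (by positivity) (by positivity), Real.log_pow, Real.log_pow] at this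
      push_cast at this
      linarith
    unfold Psi
    have h4 : 0 ≤ K / (2 * Real.sqrt k) * b := by positivity
    calc 2 * Real.log K * (a - K / (2 * Real.sqrt k) * b) ≤ 2 * Real.log K * a := by
          gcongr
          linarith
      _ ≤ (Real.log a - 2 * Real.log b) * a := by gcongr
      _ = _ := by ring
  · push Not at hc
    refine le_trans ?_ hnn
    have h5 : a ≤ K / (2 * Real.sqrt k) * b := by
      have h6 : Real.sqrt a ≤ K * b := by
        rw [show K * b = Real.sqrt ((K * b) ^ 2) by rw [Real.sqrt_sq (by positivity)]]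
        apply Real.sqrt_le_sqrt
        rw [mul_pow]
        exact hc.le
      have h7 : Real.sqrt a * Real.sqrt k ≤ 1 / 2 := by
        rw [← Real.sqrt_mul ha]
        calc Real.sqrt (a * k) ≤ Real.sqrt ((1 / 2) ^ 2) := Real.sqrt_le_sqrt (by linarith)
          _ = 1 / 2 := Real.sqrt_sq (by norm_num)
      have h8 : Real.sqrt a ≤ 1 / (2 * Real.sqrt k) := by
        rw [le_div_iff₀ (by positivity)]
        linarith
      calc a = Real.sqrt a * Real.sqrt a := (Real.mul_self_sqrt ha).symm
        _ ≤ (1 / (2 * Real.sqrt k)) * (K * b) := by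
            apply mul_le_mul h8 h6 (Real.sqrt_nonneg _) (by positivity)
        _ = _ := by ring
    have : a - K / (2 * Real.sqrt k) * b ≤ 0 := by linarith
    nlinarith

end Crest.Agent.SymInf
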