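import Mathlib
import Crest.Agent.SymInf.TwoPoint
set_option autoImplicit false
set_option linter.unusedSectionVars false
open Finset

namespace Crest.Agent.SymInf

variable {ι : Type*} [Fintype ι] [DecidableEq ι]

lemma mg_singleton (e : ι) (x y : ι → Bool) : mg {e} y x = Function.update x e (y e) := by
  funext i
  by_cases h : i = e
  · subst h; simp [mg]
  · simp [mg, h]

lemma sum_W_coord (p : ℝ) (e : ι) (g : Bool → ℝ) :
    ∑ y : ι → Bool, W p y * g (y e) = p * g true + (1 - p) * g false := by
  have h := Finset.prod_univ_sum (t := fun _ : ι => (Finset.univ : Finset Bool))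
    (f := fun i b => (if b = true then p else 1 - p) * (if i = e then g b else 1))
  rw [Fintype.piFinset_univ] at h
  have e1 : ∀ y : ι → Bool, W p y * g (y e)
      = ∏ i, ((if y i = true then p else 1 - p) * (if i = e then g (y i) else 1)) := by
    intro y
    rw [Finset.prod_mul_distrib, Finset.prod_ite_eq']
    simp [W]
  rw [Finset.sum_congr rfl fun y _ => e1 y, ← h]
  rw [Finset.prod_eq_single e]
  · simp
  · intro i _ hi
    simp [hi]
  · simp

lemma Av_single (p : ℝ) (e : ι) (F : (ι → Bool) → ℝ) (x : ι → Bool) :
    Av p {e} F x = p * F (Function.update x e true) + (1 - p) * F (Function.update x e false) := by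
  unfold Av
  simp only [mg_singleton]
  exact sum_W_coord p e (fun b => F (Function.update x e b))

lemma N2_single (p : ℝ) (e : ι) (F : (ι → Bool) → ℝ) :
    N2 p (fun x => F x - Av p {e} F x) = p * (1 - p) *
      Ex p (fun x => (F (Function.update x e true) - F (Function.update x e false)) ^ 2) := by
  unfold N2
  rw [← Ex_Av p {e}, ← Ex_smul]
  congr 1
  funext x
  rw [Av_single]
  simp only [Av_single, Function.update_idem]
  ring

lemma mg_update {T : Finset ι} {e : ι} (he : e ∉ T) (x y : ι → Bool) (b : Bool) :
    mg T y (Function.update x e b) = Function.update (mg T y x) e b := by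
  funext i
  by_cases h : i = e
  · subst h; simp [mg, he]
  · by_cases h2 : i ∈ T <;> simp [mg, h, h2]

lemma Av_update (p : ℝ) {T : Finset ι} {e : ι} (he : e ∉ T) (F : (ι → Bool) → ℝ)
    (x : ι → Bool) (b : Bool) :
    Av p T F (Function.update x e b) = Av p T (fun x => F (Function.update x e b)) x := by
  unfold Av
  simp only [mg_update he]

lemma minkowski {p : ℝ} (h0 : 0 ≤ p) (h1 : p ≤ 1) (T : Finset ι) (F G : (ι → Bool) → ℝ)
    (x : ι → Bool) :
    (Real.sqrt (Av p T (fun x => F x ^ 2) x) - Real.sqrt (Av p T (fun x => G x ^ 2) x)) ^ 2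
      ≤ Av p T (fun x => (F x - G x) ^ 2) x := by
  have hF : 0 ≤ Av p T (fun x => F x ^ 2) x := Av_nonneg h0 h1 T (fun _ => sq_nonneg _) x
  have hG : 0 ≤ Av p T (fun x => G x ^ 2) x := Av_nonneg h0 h1 T (fun _ => sq_nonneg _) x
  have hcs := Av_mul_sq_le h0 h1 T F G x
  have e : (fun x => (F x - G x) ^ 2) = fun x => (F x ^ 2 - 2 * (F x * G x)) + G x ^ 2 := by
    funext x; ring
  have e2 : Av p T (fun x => (F x - G x) ^ 2) x = Av p T (fun x => F x ^ 2) x
      - 2 * Av p T (fun x => F x * G x) x + Av p T (fun x => G x ^ 2) x := by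
    rw [e, Av_add, Av_sub, Av_smul]
  rw [e2]
  have h3 : Av p T (fun x => F x * G x) x ≤ Real.sqrt (Av p T (fun x => F x ^ 2) x)
      * Real.sqrt (Av p T (fun x => G x ^ 2) x) := by
    rw [← Real.sqrt_mul hF]
    exact Real.le_sqrt_of_sq_le hcs
  have s1 := Real.sq_sqrt hF
  have s2 := Real.sq_sqrt hG
  nlinarith

lemma Psi_self (a : ℝ) : Psi (a ^ 2) |a| = 0 := by
  unfold Psi
  rw [Real.log_pow, Real.log_abs]
  push_cast
  ring

lemma Av_sq_zero_of_abs {p : ℝ} (h0 : 0 < p) (h1 : p < 1) (T : Finset ι)
    (F : (ι → Bool) → ℝ) (x : ι → Bool) (h : Av p T (fun x => |F x|) x = 0) :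
    Av p T (fun x => F x ^ 2) x = 0 := by
  unfold Av at h ⊢
  have h2 := (Finset.sum_eq_zero_iff_of_nonneg (fun y _ =>
    mul_nonneg (W_nonneg h0.le h1.le y) (abs_nonneg _))).1 h
  apply Finset.sum_eq_zero
  intro y hy
  have h3 := h2 y hy
  have h4 : |F (mg T y x)| = 0 := by
    rcases mul_eq_zero.1 h3 with h5 | h5
    · exact absurd h5 (W_pos h0 h1 y).ne'
    · exact h5
  simp only [abs_eq_zero.1 h4]
  simp

theorem LS {p : ℝ} (h0 : 0 < p) (h1 : p < 1) (F : (ι → Bool) → ℝ) (T : Finset ι) :
    Ex p (fun x => Psi (Av p T (fun x => F x ^ 2) x) (Av p T (fun x => |F x|) x)) ≤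
      cS p * ∑ e ∈ T, N2 p (fun x => F x - Av p {e} F x) := by
  induction T using Finset.induction_on with
  | empty =>
    simp only [Av_empty, Finset.sum_empty, mul_zero]
    simp only [Psi_self]
    rw [Ex_const]
  | insert e T he ih =>
    rw [Finset.sum_insert he, mul_add]
    set a := Av p T (fun x => F x ^ 2) with ha
    set b := Av p T (fun x => |F x|) with hb
    have hu : insert e T = {e} ∪ T := by rw [Finset.insert_eq]
    have ea : Av p (insert e T) (fun x => F x ^ 2) = Av p {e} a := by
      rw [hu, ha, Av_Av]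
    have eb : Av p (insert e T) (fun x => |F x|) = Av p {e} b := by
      rw [hu, hb, Av_Av]
    rw [ea, eb]
    have ha0 : ∀ x, 0 ≤ a x := fun x => Av_nonneg h0.le h1.le T (fun _ => sq_nonneg _) x
    have hb0 : ∀ x, 0 ≤ b x := fun x => Av_nonneg h0.le h1.le T (fun _ => abs_nonneg _) x
    have hab : ∀ x, b x = 0 → a x = 0 := fun x hx => Av_sq_zero_of_abs h0 h1 T F x hx
    have hcS : 0 ≤ cS p := by
      unfold cS
      have : 0 ≤ Real.log (1 / (p * (1 - p))) := by
        apply Real.log_nonneg
        rw [le_div_iff₀ (mul_pos h0 (by linarith))]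
        nlinarith
      linarith
    have key : ∀ x, Psi (Av p {e} a x) (Av p {e} b x) ≤ Av p {e} (fun x => Psi (a x) (b x)) x
        + cS p * (p * (1 - p) * Av p T (fun x => (F (Function.update x e true)
          - F (Function.update x e false)) ^ 2) x) := by
      intro x
      have h := two_point_Psi h0 h1 (ha0 (Function.update x e true))
        (ha0 (Function.update x e false)) (hb0 (Function.update x e true))
        (hb0 (Function.update x e false)) (hab _) (hab _)
      rw [Av_single, Av_single, Av_single]
      refine h.trans ?_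
      have hm := minkowski h0.le h1.le T (fun x => F (Function.update x e true))
        (fun x => F (Function.update x e false)) x
      have e1 : a (Function.update x e true) = Av p T (fun x => F (Function.update x e true) ^ 2) x := by
        rw [ha, Av_update p he]
      have e0 : a (Function.update x e false) = Av p T (fun x => F (Function.update x e false) ^ 2) x := by
        rw [ha, Av_update p he]
      rw [e1, e0]
      have hq : 0 < 1 - p := by linarith
      gcongr
    calc Ex p (fun x => Psi (Av p {e} a x) (Av p {e} b x))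
        ≤ Ex p (fun x => Av p {e} (fun x => Psi (a x) (b x)) x
        + cS p * (p * (1 - p) * Av p T (fun x => (F (Function.update x e true)
          - F (Function.update x e false)) ^ 2) x)) := Ex_mono h0.le h1.le key
      _ = Ex p (fun x => Psi (a x) (b x)) + cS p * (p * (1 - p) *
            Ex p (fun x => (F (Function.update x e true)
          - F (Function.update x e false)) ^ 2)) := by
          rw [Ex_add, Ex_Av, Ex_smul, Ex_smul, Ex_Av]
      _ ≤ _ := by
          rw [N2_single]
          linarith

end Crest.Agent.SymInf
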