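import Mathlib
import Crest.Agent.SymInf.LogSob
import Crest.Prelude.Def_HypergraphCube
set_option autoImplicit false
set_option linter.unusedSectionVars false
open Finset
open Crest.CombinatoricsR.HypergraphCube

namespace Crest.Agent.SymInf

variable {n r : ℕ}

/-- the action of vertex permutations on slots -/
def slotPerm (σ : Equiv.Perm (Fin n)) : Equiv.Perm (HyperedgeSlot n r) where
  toFun := relabelSlot σ
  invFun := relabelSlot σ.symm
  left_inv e := by
    apply Subtype.ext
    simp only [relabelSlot, Finset.map_map]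
    ext i
    simp
  right_inv e := by
    apply Subtype.ext
    simp only [relabelSlot, Finset.map_map]
    ext i
    simp

/-- slots touching the vertex set `J` -/
def touch (r : ℕ) (J : Finset (Fin n)) : Finset (HyperedgeSlot n r) :=
  Finset.univ.filter (fun e => ¬ Disjoint e.1 J)

lemma mem_touch {J : Finset (Fin n)} {e : HyperedgeSlot n r} :
    e ∈ touch r J ↔ ¬ Disjoint e.1 J := by simp [touch]

lemma touch_union (J J' : Finset (Fin n)) : touch r J ∪ touch r J' = touch r (J ∪ J') := by
  ext e
  simp only [Finset.mem_union, mem_touch, Finset.disjoint_union_right]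
  tauto

lemma touch_map (σ : Equiv.Perm (Fin n)) (J : Finset (Fin n)) :
    (touch r J).map (slotPerm σ).toEmbedding = touch r (J.map σ.toEmbedding) := by
  ext e
  simp only [Finset.mem_map_equiv, mem_touch]
  have e1 : ((slotPerm σ).symm e).1 = e.1.map σ.symm.toEmbedding := rfl
  rw [e1]
  apply not_congr
  constructor
  · intro h
    rw [Finset.disjoint_left] at h ⊢
    intro i hi hj
    rw [Finset.mem_map_equiv] at hj
    exact h (a := σ.symm i) (by simpa [Finset.mem_map_equiv] using hi) hj
  · intro h
    rw [Finset.disjoint_left] at h ⊢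
    intro i hi hj
    rw [Finset.mem_map_equiv] at hi
    exact h (a := σ i) (by simpa using hi) (by rw [Finset.mem_map_equiv]; simpa using hj)

/-- averaging over the slots touching `J` -/
noncomputable def Q (p : ℝ) (J : Finset (Fin n)) (F : (HyperedgeSlot n r → Bool) → ℝ) :
    (HyperedgeSlot n r → Bool) → ℝ := Av p (touch r J) F

/-- invariance under the renaming of vertices -/
def Inv (F : (HyperedgeSlot n r → Bool) → ℝ) : Prop :=
  ∀ σ : Equiv.Perm (Fin n), Rl (slotPerm σ) F = F

lemma Q_Q (p : ℝ) (J J' : Finset (Fin n)) (F : (HyperedgeSlot n r → Bool) → ℝ) :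
    Q p J (Q p J' F) = Q p (J ∪ J') F := by
  unfold Q
  rw [Av_Av, touch_union]

lemma Q_empty (p : ℝ) (F : (HyperedgeSlot n r → Bool) → ℝ) : Q p ∅ F = F := by
  unfold Q
  have : touch r (∅ : Finset (Fin n)) = ∅ := by
    ext e; simp [mem_touch]
  rw [this, Av_empty]

lemma Q_Rl (p : ℝ) (σ : Equiv.Perm (Fin n)) (J : Finset (Fin n))
    (F : (HyperedgeSlot n r → Bool) → ℝ) :
    Q p (J.map σ.toEmbedding) (Rl (slotPerm σ) F) = Rl (slotPerm σ) (Q p J F) := by
  unfold Q
  rw [← touch_map, Av_Rl]

/-- the difference functions -/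
noncomputable def G (p : ℝ) (f : (HyperedgeSlot n r → Bool) → ℝ) (A B : Finset (Fin n)) :
    (HyperedgeSlot n r → Bool) → ℝ :=
  fun x => ∑ J ∈ B.powerset, (-1 : ℝ) ^ J.card * Q p (A ∪ J) f x

lemma G_empty (p : ℝ) (f : (HyperedgeSlot n r → Bool) → ℝ) (A : Finset (Fin n)) :
    G p f A ∅ = Q p A f := by
  funext x
  simp [G]

lemma G_insert (p : ℝ) (f : (HyperedgeSlot n r → Bool) → ℝ) (A B : Finset (Fin n))
    {v : Fin n} (hv : v ∉ B) :
    G p f A (insert v B) = fun x => G p f A B x - G p f (insert v A) B x := by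
  funext x
  unfold G
  rw [Finset.sum_powerset_insert hv]
  rw [sub_eq_add_neg, ← Finset.sum_neg_distrib]
  congr 1
  refine Finset.sum_congr rfl fun J hJ => ?_
  have hvJ : v ∉ J := fun h => hv (Finset.mem_powerset.1 hJ h)
  rw [Finset.card_insert_of_notMem hvJ]
  have : A ∪ insert v J = insert v A ∪ J := by
    rw [Finset.union_insert, Finset.insert_union]
  rw [this]
  ring

lemma Q_G (p : ℝ) (f : (HyperedgeSlot n r → Bool) → ℝ) (A B : Finset (Fin n)) (C : Finset (Fin n)) :
    Q p C (G p f A B) = G p f (C ∪ A) B := by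
  unfold G
  have : Q p C (fun x => ∑ J ∈ B.powerset, (-1 : ℝ) ^ J.card * Q p (A ∪ J) f x)
      = fun x => ∑ J ∈ B.powerset, Q p C (fun x => (-1 : ℝ) ^ J.card * Q p (A ∪ J) f x) x := by
    unfold Q
    rw [Av_sum]
  rw [this]
  funext x
  refine Finset.sum_congr rfl fun J _ => ?_
  have e : Q p C (fun x => (-1 : ℝ) ^ J.card * Q p (A ∪ J) f x)
      = fun x => (-1 : ℝ) ^ J.card * Q p C (Q p (A ∪ J) f) x := by
    unfold Q
    rw [Av_smul]
  rw [e, Q_Q, Finset.union_assoc]

theorem pascal (p : ℝ) (f : (HyperedgeSlot n r → Bool) → ℝ) (A B : Finset (Fin n))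
    {v : Fin n} (hv : v ∉ B) :
    N2 p (G p f A B) = N2 p (G p f (insert v A) B) + N2 p (G p f A (insert v B)) := by
  have h := pythag p (touch r {v}) (G p f A B)
  have e1 : Av p (touch r {v}) (G p f A B) = G p f (insert v A) B := by
    have := Q_G p f A B {v}
    unfold Q at this
    rw [this, Finset.insert_eq]
  rw [e1] at h
  rw [h, G_insert p f A B hv]

lemma G_map (p : ℝ) {f : (HyperedgeSlot n r → Bool) → ℝ} (hf : Inv f) (σ : Equiv.Perm (Fin n))
    (A B : Finset (Fin n)) :
    G p f (A.map σ.toEmbedding) (B.map σ.toEmbedding) = Rl (slotPerm σ) (G p f A B) := by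
  funext x
  unfold G
  have h1 : (B.map σ.toEmbedding).powerset
      = B.powerset.map ⟨fun J => J.map σ.toEmbedding, Finset.map_injective _⟩ := by
    ext J
    simp only [Finset.mem_powerset, Finset.mem_map, Function.Embedding.coeFn_mk]
    constructor
    · intro h
      refine ⟨J.map σ.symm.toEmbedding, ?_, ?_⟩
      · intro i hi
        rw [Finset.mem_map_equiv] at hi
        have := h hi
        rw [Finset.mem_map_equiv] at this
        simpa using this
      · ext i
        simp
    · rintro ⟨J', h, rfl⟩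
      exact Finset.map_subset_map.2 h
  rw [h1, Finset.sum_map]
  simp only [Function.Embedding.coeFn_mk, Finset.card_map]
  unfold Rl
  refine Finset.sum_congr rfl fun J _ => ?_
  congr 1
  rw [← Finset.map_union]
  have := Q_Rl p σ (A ∪ J) f
  rw [hf σ] at this
  rw [this]
  rfl

lemma N2_G_map (p : ℝ) {f : (HyperedgeSlot n r → Bool) → ℝ} (hf : Inv f) (σ : Equiv.Perm (Fin n))
    (A B : Finset (Fin n)) :
    N2 p (G p f (A.map σ.toEmbedding) (B.map σ.toEmbedding)) = N2 p (G p f A B) := by
  rw [G_map p hf, N2_Rl]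

lemma exists_perm {A B A' B' : Finset (Fin n)} (hAB : Disjoint A B) (hAB' : Disjoint A' B')
    (hA : A.card = A'.card) (hB : B.card = B'.card) :
    ∃ σ : Equiv.Perm (Fin n), A.map σ.toEmbedding = A' ∧ B.map σ.toEmbedding = B' := by
  classical
  let c : Finset (Fin n) → Finset (Fin n) → Fin n → Fin 3 := fun A B i =>
    if i ∈ A then 0 else if i ∈ B then 1 else 2
  have hc : ∀ {A B A' B' : Finset (Fin n)}, Disjoint A B → Disjoint A' B' →
      A.card = A'.card → B.card = B'.card → ∀ k : Fin 3,
      Fintype.card {i // c A B i = k} = Fintype.card {i // c A' B' i = k} := by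
    intro A B A' B' hAB hAB' hA hB k
    rw [Fintype.card_subtype, Fintype.card_subtype]
    have k0 : ∀ A B : Finset (Fin n), Finset.univ.filter (fun i => c A B i = 0) = A := by
      intro A B
      ext i
      simp only [c, Finset.mem_filter, Finset.mem_univ, true_and]
      split_ifs <;> simp_all
    have k1 : ∀ A B : Finset (Fin n), Disjoint A B →
        Finset.univ.filter (fun i => c A B i = 1) = B := by
      intro A B h
      ext i
      simp only [c, Finset.mem_filter, Finset.mem_univ, true_and]
      rw [Finset.disjoint_left] at h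
      split_ifs with h1 h2
      · simp [h h1]
      · simp [h2]
      · simp [h2]
    have k2 : ∀ A B : Finset (Fin n), Finset.univ.filter (fun i => c A B i = 2) = (A ∪ B)ᶜ := by
      intro A B
      ext i
      simp only [c, Finset.mem_filter, Finset.mem_univ, true_and, Finset.mem_compl,
        Finset.mem_union, not_or]
      split_ifs <;> simp_all
    fin_cases k
    · show (Finset.univ.filter (fun i => c A B i = 0)).card = (Finset.univ.filter (fun i => c A' B' i = 0)).card
      rw [k0, k0, hA]
    · show (Finset.univ.filter (fun i => c A B i = 1)).card = (Finset.univ.filter (fun i => c A' B' i = 1)).card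
      rw [k1 _ _ hAB, k1 _ _ hAB', hB]
    · show (Finset.univ.filter (fun i => c A B i = 2)).card = (Finset.univ.filter (fun i => c A' B' i = 2)).card
      rw [k2, k2, Finset.card_compl, Finset.card_compl, Finset.card_union_of_disjoint hAB,
        Finset.card_union_of_disjoint hAB', hA, hB]
  let σ : Equiv.Perm (Fin n) := Equiv.ofFiberEquiv (f := c A B) (g := c A' B')
    (fun k => Fintype.equivOfCardEq (hc hAB hAB' hA hB k))
  have hσ : ∀ i, c A' B' (σ i) = c A B i := fun i => Equiv.ofFiberEquiv_map _ i
  have m0 : ∀ A B : Finset (Fin n), ∀ i, c A B i = 0 ↔ i ∈ A := by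
    intro A B i
    simp only [c]
    split_ifs <;> simp_all
  have m1 : ∀ A B : Finset (Fin n), Disjoint A B → ∀ i, c A B i = 1 ↔ i ∈ B := by
    intro A B h i
    simp only [c]
    rw [Finset.disjoint_left] at h
    split_ifs with h1 h2
    · simp [h h1]
    · simp [h2]
    · simp [h2]
  refine ⟨σ, ?_, ?_⟩
  · ext i
    rw [Finset.mem_map_equiv, ← m0 A B, ← hσ, m0]
    simp
  · ext i
    rw [Finset.mem_map_equiv, ← m1 A B hAB, ← hσ, m1 _ _ hAB']
    simp

theorem N2_G_eq (p : ℝ) {f : (HyperedgeSlot n r → Bool) → ℝ} (hf : Inv f)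
    {A B A' B' : Finset (Fin n)} (hAB : Disjoint A B) (hAB' : Disjoint A' B')
    (hA : A.card = A'.card) (hB : B.card = B'.card) :
    N2 p (G p f A B) = N2 p (G p f A' B') := by
  obtain ⟨σ, h1, h2⟩ := exists_perm hAB hAB' hA hB
  rw [← h1, ← h2, N2_G_map p hf]

end Crest.Agent.SymInf
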