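import Mathlib
import Crest.Agent.SymInf.Sym
set_option autoImplicit false
set_option linter.unusedSectionVars false
open Finset
open Crest.CombinatoricsR.HypergraphCube

namespace Crest.Agent.SymInf

section general
variable {ι : Type*} [Fintype ι] [DecidableEq ι]

/-- Efron–Stein -/
theorem efron_stein {p : ℝ} (h0 : 0 ≤ p) (h1 : p ≤ 1) (f : (ι → Bool) → ℝ) (T : Finset ι) :
    N2 p (fun x => f x - Av p T f x) ≤ ∑ e ∈ T, N2 p (fun x => f x - Av p {e} f x) := by
  induction T using Finset.induction_on with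
  | empty =>
    simp only [Av_empty, sub_self, Finset.sum_empty]
    unfold N2 Ex
    simp
  | insert e T he ih =>
    rw [Finset.sum_insert he]
    have h := pythag p {e} (fun x => f x - Av p (insert e T) f x)
    have e1 : Av p {e} (fun x => f x - Av p (insert e T) f x)
        = Av p {e} (fun x => f x - Av p T f x) := by
      rw [Av_sub, Av_sub, Av_Av, Av_Av]
      have : {e} ∪ insert e T = {e} ∪ T := by
        ext i; simp
      rw [this]
    have e2 : (fun x => f x - Av p (insert e T) f x - Av p {e} (fun x => f x - Av p (insert e T) f x) x)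
        = fun x => f x - Av p {e} f x := by
      funext x
      rw [Av_sub, Av_Av]
      have : {e} ∪ insert e T = insert e T := by
        ext i; simp
      rw [this]
      ring
    rw [h, e2, e1]
    have h2 := N2_Av_le h0 h1 {e} (fun x => f x - Av p T f x)
    linarith

/-- mean absolute deviation of a 0-1 function -/
theorem abs_dev {p : ℝ} (h0 : 0 ≤ p) (h1 : p ≤ 1) {f : (ι → Bool) → ℝ}
    (hf : ∀ x, f x = 0 ∨ f x = 1) (T : Finset ι) :
    Ex p (fun x => |f x - Av p T f x|) = 2 * N2 p (fun x => f x - Av p T f x) := by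
  have hm0 : ∀ x, 0 ≤ Av p T f x := fun x => Av_nonneg h0 h1 T (fun x => by
    rcases hf x with h | h <;> rw [h]; norm_num) x
  have hm1 : ∀ x, Av p T f x ≤ 1 := by
    intro x
    have := Av_mono h0 h1 T (F := f) (G := fun _ => 1) (fun x => by
      rcases hf x with h | h <;> rw [h]; norm_num) x
    rwa [Av_const] at this
  have e1 : (fun x => |f x - Av p T f x|) = fun x => f x + Av p T f x - 2 * (Av p T f x * f x) := by
    funext x
    rcases hf x with h | h
    · rw [h]
      rw [zero_sub, abs_neg, abs_of_nonneg (hm0 x)]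
      ring
    · rw [h]
      rw [abs_of_nonneg (by linarith [hm1 x])]
      ring
  have e2 : (fun x => (f x - Av p T f x) ^ 2) = fun x => f x + Av p T f x ^ 2 - 2 * (Av p T f x * f x) := by
    funext x
    have : f x ^ 2 = f x := by rcases hf x with h | h <;> rw [h] <;> norm_num
    linear_combination this
  have e3 : Ex p (fun x => Av p T f x * f x) = Ex p (fun x => Av p T f x ^ 2) := by
    have := Ex_mul_Av p T f f
    calc Ex p (fun x => Av p T f x * f x) = Ex p (fun x => f x * Av p T f x) := by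
          congr 1; funext x; ring
      _ = Ex p (fun x => Av p T f x * Av p T f x) := this
      _ = _ := by congr 1; funext x; ring
  unfold N2
  rw [e1, e2, Ex_sub, Ex_sub, Ex_add, Ex_add, Ex_smul, e3, Ex_Av]
  ring

end general

variable {n r : ℕ}

/-- the difference in direction `u` inside `U` -/
noncomputable def D (p : ℝ) (f : (HyperedgeSlot n r → Bool) → ℝ) (U : Finset (Fin n)) (u : Fin n) :
    (HyperedgeSlot n r → Bool) → ℝ := fun x => Q p (U.erase u) f x - Q p U f x

lemma Q_sub (p : ℝ) (J : Finset (Fin n)) (F F' : (HyperedgeSlot n r → Bool) → ℝ) :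
    Q p J (fun x => F x - F' x) = fun x => Q p J F x - Q p J F' x := Av_sub _ _ _ _

lemma Q_add (p : ℝ) (J : Finset (Fin n)) (F F' : (HyperedgeSlot n r → Bool) → ℝ) :
    Q p J (fun x => F x + F' x) = fun x => Q p J F x + Q p J F' x := Av_add _ _ _ _

lemma Q_smul (p : ℝ) (J : Finset (Fin n)) (c : ℝ) (F : (HyperedgeSlot n r → Bool) → ℝ) :
    Q p J (fun x => c * F x) = fun x => c * Q p J F x := Av_smul _ _ _ _

lemma Q_sum {κ : Type*} (p : ℝ) (J : Finset (Fin n)) (s : Finset κ)
    (F : κ → (HyperedgeSlot n r → Bool) → ℝ) :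
    Q p J (fun x => ∑ k ∈ s, F k x) = fun x => ∑ k ∈ s, Q p J (F k) x := Av_sum _ _ _ _

lemma touch_mono {J J' : Finset (Fin n)} (h : J ⊆ J') : touch r J ⊆ touch r J' := by
  intro e he
  rw [mem_touch] at he ⊢
  exact fun h2 => he (Finset.disjoint_of_subset_right h h2)

lemma Ind_Q (p : ℝ) {J J' : Finset (Fin n)} (h : J' ⊆ J) (F : (HyperedgeSlot n r → Bool) → ℝ) :
    Ind (touch r J') (Q p J F) := Ind_Av p (touch_mono h) F

lemma Q_mul_left (p : ℝ) {J : Finset (Fin n)} {φ : (HyperedgeSlot n r → Bool) → ℝ}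
    (h : Ind (touch r J) φ) (F : (HyperedgeSlot n r → Bool) → ℝ) :
    Q p J (fun x => φ x * F x) = fun x => φ x * Q p J F x := Av_mul_left p h F

lemma Q_of_subset' (p : ℝ) {J J' : Finset (Fin n)} (h : J ⊆ J')
    (F : (HyperedgeSlot n r → Bool) → ℝ) : Q p J' (Q p J F) = Q p J' F := by
  rw [Q_Q, Finset.union_eq_left.2 h]

lemma Q_of_subset (p : ℝ) {J J' : Finset (Fin n)} (h : J ⊆ J')
    (F : (HyperedgeSlot n r → Bool) → ℝ) : Q p J (Q p J' F) = Q p J' F := by
  rw [Q_Q, Finset.union_eq_right.2 h]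

lemma Ind_sub {ι : Type*} [DecidableEq ι] {T : Finset ι} {F G : (ι → Bool) → ℝ}
    (h : Ind T F) (h' : Ind T G) : Ind T (fun x => F x - G x) := by
  intro x y
  simp only [h x y, h' x y]

lemma Q_U_D (p : ℝ) (f : (HyperedgeSlot n r → Bool) → ℝ) (U : Finset (Fin n)) (u : Fin n) :
    Q p U (D p f U u) = fun _ => 0 := by
  unfold D
  rw [Q_sub, Q_Q, Q_Q, Finset.union_idempotent, Finset.union_eq_left.2 (Finset.erase_subset _ _)]
  funext x
  simp

lemma Ind_D (p : ℝ) (f : (HyperedgeSlot n r → Bool) → ℝ) (U : Finset (Fin n)) (u : Fin n) :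
    Ind (touch r (U.erase u)) (D p f U u) :=
  Ind_sub (Ind_Q p (Finset.Subset.refl _) f) (Ind_Q p (Finset.erase_subset _ _) f)

lemma D_orth (p : ℝ) (f : (HyperedgeSlot n r → Bool) → ℝ) (U : Finset (Fin n)) {u u' : Fin n}
    (hu : u ∈ U) (hne : u ≠ u') :
    Q p U (fun x => D p f U u x * D p f U u' x) = fun _ => 0 := by
  rw [← Q_of_subset' p (Finset.erase_subset u U), Q_mul_left p (Ind_D p f U u)]
  have : Q p (U.erase u) (D p f U u') = fun _ => 0 := by
    unfold D
    rw [Q_sub, Q_Q, Q_Q]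
    have e1 : U.erase u ∪ U.erase u' = U := by
      ext i
      simp only [Finset.mem_union, Finset.mem_erase]
      constructor
      · rintro (h | h) <;> exact h.2
      · intro h
        by_cases hi : i = u
        · right; rw [hi]; exact ⟨hne, hu⟩
        · left; exact ⟨hi, h⟩
    have e2 : U.erase u ∪ U = U := Finset.union_eq_right.2 (Finset.erase_subset _ _)
    rw [e1, e2]
    funext x
    simp
  rw [this]
  simp only [mul_zero]
  unfold Q
  rw [Av_const]

lemma D_inner (p : ℝ) (f : (HyperedgeSlot n r → Bool) → ℝ) (U : Finset (Fin n)) (u : Fin n) :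
    Q p U (fun x => D p f U u x * f x) = Q p U (fun x => D p f U u x ^ 2) := by
  rw [← Q_of_subset' p (Finset.erase_subset u U), Q_mul_left p (Ind_D p f U u)]
  have e : (fun x => D p f U u x * Q p (U.erase u) f x)
      = fun x => D p f U u x ^ 2 + Q p U f x * D p f U u x := by
    funext x
    unfold D
    ring
  rw [e, Q_add, Q_mul_left p (Ind_Q p (Finset.Subset.refl _) f), Q_U_D]
  funext x
  simp

theorem bessel {p : ℝ} (h0 : 0 ≤ p) (h1 : p ≤ 1) (f : (HyperedgeSlot n r → Bool) → ℝ)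
    (U : Finset (Fin n)) (x : HyperedgeSlot n r → Bool) :
    ∑ u ∈ U, Q p U (fun x => D p f U u x ^ 2) x ≤ Q p U (fun x => f x ^ 2) x - Q p U f x ^ 2 := by
  set m := Q p U f with hm
  have hmI : Ind (touch r U) m := Ind_Q p (Finset.Subset.refl _) f
  set S : (HyperedgeSlot n r → Bool) → ℝ := fun x => ∑ u ∈ U, D p f U u x with hS
  have hnn : 0 ≤ Q p U (fun x => (f x - m x - S x) ^ 2) x :=
    Av_nonneg h0 h1 _ (fun _ => sq_nonneg _) x
  have e : (fun x => (f x - m x - S x) ^ 2) = fun x =>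
      (((f x ^ 2 - 2 * (m x * f x)) + m x * m x) - 2 * (∑ u ∈ U, D p f U u x * f x)
        + 2 * (m x * ∑ u ∈ U, D p f U u x)) + ∑ u ∈ U, ∑ u' ∈ U, D p f U u x * D p f U u' x := by
    funext x
    have e1 : ∑ u ∈ U, D p f U u x * f x = S x * f x := by rw [hS, Finset.sum_mul]
    have e2 : ∑ u ∈ U, ∑ u' ∈ U, D p f U u x * D p f U u' x = S x * S x := by
      rw [hS, Finset.sum_mul]
      refine Finset.sum_congr rfl fun u _ => ?_
      rw [Finset.mul_sum]
    have e3 : ∑ u ∈ U, D p f U u x = S x := rfl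
    rw [e1, e2, e3]
    ring
  have e1 : Q p U (fun x => m x * f x) x = m x * m x := by
    rw [Q_mul_left p hmI]
  have e2 : Q p U (fun x => m x * m x) x = m x * m x := by
    rw [Q_mul_left p hmI, hm, Q_of_subset p (Finset.Subset.refl _)]
  have e3 : Q p U (fun x => ∑ u ∈ U, D p f U u x * f x) x
      = ∑ u ∈ U, Q p U (fun x => D p f U u x ^ 2) x := by
    rw [Q_sum]
    refine Finset.sum_congr rfl fun u _ => ?_
    rw [D_inner]
  have e4 : Q p U (fun x => m x * ∑ u ∈ U, D p f U u x) x = 0 := by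
    rw [Q_mul_left p hmI, Q_sum]
    simp [Q_U_D]
  have e5 : Q p U (fun x => ∑ u ∈ U, ∑ u' ∈ U, D p f U u x * D p f U u' x) x
      = ∑ u ∈ U, Q p U (fun x => D p f U u x ^ 2) x := by
    rw [Q_sum]
    refine Finset.sum_congr rfl fun u hu => ?_
    rw [Q_sum]
    show ∑ k ∈ U, Q p U (fun x => D p f U u x * D p f U k x) x = Q p U (fun x => D p f U u x ^ 2) x
    rw [Finset.sum_eq_single u]
    · congr 1
      funext x
      ring
    · intro u' _ hne
      rw [D_orth p f U hu (Ne.symm hne)]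
    · intro h; exact absurd hu h
  rw [e, Q_add, Q_add, Q_sub, Q_add, Q_sub, Q_smul, Q_smul, Q_smul] at hnn
  simp only at hnn
  rw [e1, e2, e3, e4, e5] at hnn
  linarith

lemma slotPerm_fix {σ : Equiv.Perm (Fin n)} {U : Finset (Fin n)} (hσ : ∀ i, i ∉ U → σ i = i)
    {e : HyperedgeSlot n r} (he : e ∉ touch r U) : slotPerm σ e = e := by
  rw [mem_touch, not_not] at he
  apply Subtype.ext
  show e.1.map σ.toEmbedding = e.1
  rw [Finset.disjoint_left] at he
  apply Finset.eq_of_subset_of_card_le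
  · intro i hi
    rw [Finset.mem_map] at hi
    obtain ⟨j, hj, rfl⟩ := hi
    have := hσ j (he hj)
    show σ j ∈ e.1
    rw [this]
    exact hj
  · rw [Finset.card_map]

lemma Rl_of_Ind {σ : Equiv.Perm (Fin n)} {U : Finset (Fin n)} (hσ : ∀ i, i ∉ U → σ i = i)
    {φ : (HyperedgeSlot n r → Bool) → ℝ} (h : Ind (touch r U) φ) : Rl (slotPerm σ) φ = φ := by
  funext x
  unfold Rl
  have : (fun i => x (slotPerm σ i)) = mg (touch r U) (fun i => x (slotPerm σ i)) x := by
    funext i
    unfold mg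
    split_ifs with hi
    · rfl
    · rw [slotPerm_fix hσ hi]
  rw [this]
  exact h _ _

lemma D_sq_symm (p : ℝ) {f : (HyperedgeSlot n r → Bool) → ℝ} (hf : Inv f) (U : Finset (Fin n))
    {u u' : Fin n} (hu : u ∈ U) (hu' : u' ∈ U) :
    Q p U (fun x => D p f U u' x ^ 2) = Q p U (fun x => D p f U u x ^ 2) := by
  set σ := Equiv.swap u u' with hσ
  have hUσ : U.map σ.toEmbedding = U := by
    ext i
    rw [Finset.mem_map_equiv, hσ, Equiv.symm_swap]
    by_cases h1 : i = u
    · subst h1; simp [hu, hu']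
    · by_cases h2 : i = u'
      · subst h2; simp [hu, hu']
      · rw [Equiv.swap_apply_of_ne_of_ne h1 h2]
  have hEσ : (U.erase u).map σ.toEmbedding = U.erase u' := by
    rw [Finset.map_erase, hUσ]
    congr 1
    simp [hσ]
  have hD : D p f U u' = Rl (slotPerm σ) (D p f U u) := by
    funext x
    have a1 := Q_Rl p σ (U.erase u) f
    have a2 := Q_Rl p σ U f
    rw [hf σ, hEσ] at a1
    rw [hf σ, hUσ] at a2
    unfold D
    rw [a1]
    conv_lhs => rw [a2]
    rfl
  have h3 := Q_Rl p σ U (fun x => D p f U u x ^ 2)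
  rw [hUσ] at h3
  have h4 : (fun x => D p f U u' x ^ 2) = Rl (slotPerm σ) (fun x => D p f U u x ^ 2) := by
    rw [hD]; rfl
  rw [h4, h3]
  apply Rl_of_Ind (U := U)
  · intro i hi
    rw [hσ, Equiv.swap_apply_of_ne_of_ne]
    · rintro rfl; exact hi hu
    · rintro rfl; exact hi hu'
  · exact Ind_Q p (Finset.Subset.refl _) _

theorem D_sq_le {p : ℝ} (h0 : 0 ≤ p) (h1 : p ≤ 1) {f : (HyperedgeSlot n r → Bool) → ℝ}
    (hf : Inv f) (hf01 : ∀ x, f x = 0 ∨ f x = 1) (U : Finset (Fin n))
    {u : Fin n} (hu : u ∈ U) (x : HyperedgeSlot n r → Bool) :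
    Q p U (fun x => D p f U u x ^ 2) x * U.card ≤ 1 / 4 := by
  have hb := bessel h0 h1 f U x
  have h2 : ∑ u' ∈ U, Q p U (fun x => D p f U u' x ^ 2) x
      = U.card * Q p U (fun x => D p f U u x ^ 2) x := by
    rw [Finset.sum_congr rfl fun u' hu' => by rw [D_sq_symm p hf U hu hu'], Finset.sum_const,
      nsmul_eq_mul]
  have h3 : (fun x => f x ^ 2) = f := by
    funext x
    rcases hf01 x with h | h <;> rw [h] <;> norm_num
  rw [h3, h2] at hb
  nlinarith [sq_nonneg (Q p U f x - 1 / 2)]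

end Crest.Agent.SymInf
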