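import Mathlib
import Crest.Agent.SymInf.Dir
set_option autoImplicit false
set_option linter.unusedSectionVars false
open Finset
open Crest.CombinatoricsR.HypergraphCube

namespace Crest.Agent.SymInf

variable {n r : ℕ}

/-- squared influence of a slot -/
noncomputable def inf (p : ℝ) (f : (HyperedgeSlot n r → Bool) → ℝ) (e : HyperedgeSlot n r) : ℝ :=
  N2 p (fun x => f x - Av p {e} f x)

lemma inf_perm (p : ℝ) {f : (HyperedgeSlot n r → Bool) → ℝ} (hf : Inv f) (σ : Equiv.Perm (Fin n))
    (e : HyperedgeSlot n r) : inf p f (slotPerm σ e) = inf p f e := by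
  unfold inf
  have h := Av_Rl p (slotPerm σ) {e} f
  rw [hf σ, Finset.map_singleton] at h
  have h2 : (slotPerm σ).toEmbedding e = slotPerm σ e := rfl
  rw [h2] at h
  rw [h, ← N2_Rl p (slotPerm σ) (fun x => f x - Av p {e} f x)]
  congr 1
  funext x
  show f x - _ = f (fun i => x (slotPerm σ i)) - _
  have := congrFun (hf σ) x
  unfold Rl at this
  rw [this]
  rfl

lemma mem_touch_singleton {u : Fin n} {e : HyperedgeSlot n r} : e ∈ touch r {u} ↔ u ∈ e.1 := by
  rw [mem_touch, Finset.disjoint_singleton_right, not_not]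

lemma sum_touch_eq (p : ℝ) {f : (HyperedgeSlot n r → Bool) → ℝ} (hf : Inv f) (u u' : Fin n) :
    ∑ e ∈ touch r {u}, inf p f e = ∑ e ∈ touch r {u'}, inf p f e := by
  set σ := Equiv.swap u u' with hσ
  have h : (touch r {u}).map (slotPerm σ).toEmbedding = touch r {u'} := by
    rw [touch_map]
    congr 1
    simp [hσ]
  rw [← h, Finset.sum_map]
  refine Finset.sum_congr rfl fun e _ => ?_
  show _ = inf p f (slotPerm σ e)
  rw [inf_perm p hf]

lemma card_touch_eq (u u' : Fin n) : (touch r {u}).card = (touch r {u'}).card := by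
  set σ := Equiv.swap u u' with hσ
  have h : (touch r {u}).map (slotPerm σ).toEmbedding = touch r {u'} := by
    rw [touch_map]
    congr 1
    simp [hσ]
  rw [← h, Finset.card_map]

theorem sum_touch (p : ℝ) {f : (HyperedgeSlot n r → Bool) → ℝ} (hf : Inv f) (u : Fin n) :
    (n : ℝ) * ∑ e ∈ touch r {u}, inf p f e = r * ∑ e, inf p f e := by
  calc (n : ℝ) * ∑ e ∈ touch r {u}, inf p f e = ∑ u' : Fin n, ∑ e ∈ touch r {u'}, inf p f e := by
        rw [Finset.sum_congr rfl fun u' _ => sum_touch_eq p hf u' u]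
        simp
    _ = ∑ e : HyperedgeSlot n r, ∑ u' : Fin n, if u' ∈ e.1 then inf p f e else 0 := by
        rw [Finset.sum_comm]
        refine Finset.sum_congr rfl fun u' _ => ?_
        rw [← Finset.sum_filter]
        refine Finset.sum_congr ?_ fun _ _ => rfl
        ext e
        rw [mem_touch_singleton]
        simp
    _ = _ := by
        rw [Finset.mul_sum]
        refine Finset.sum_congr rfl fun e _ => ?_
        rw [← Finset.sum_filter, Finset.sum_const, nsmul_eq_mul]
        congr 2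
        have : Finset.univ.filter (fun u' => u' ∈ e.1) = e.1 := by ext; simp
        rw [this, e.2]

lemma N2_zero {ι : Type*} [Fintype ι] [DecidableEq ι] (p : ℝ) {F : (ι → Bool) → ℝ}
    (h : ∀ x, F x = 0) : N2 p F = 0 := by
  unfold N2 Ex
  simp [h]

/-- `A_e` kills the difference unless `e ∩ U = {u}` -/
lemma D_flat (p : ℝ) (f : (HyperedgeSlot n r → Bool) → ℝ) {A : Finset (Fin n)} {u : Fin n}
    (hu : u ∉ A) {e : HyperedgeSlot n r} (he : e ∈ touch r A) :
    (fun x => D p f (insert u A) u x - Av p {e} (D p f (insert u A) u) x) = fun _ => 0 := by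
  have e1 : ({e} : Finset (HyperedgeSlot n r)) ⊆ touch r A := by simpa using he
  have : Av p {e} (D p f (insert u A) u) = D p f (insert u A) u := by
    unfold D Q
    rw [Finset.erase_insert hu, Av_sub, Av_of_subset p e1,
      Av_of_subset p (e1.trans (touch_mono (Finset.subset_insert _ _)))]
  rw [this]
  funext x
  ring

lemma D_eq_G (p : ℝ) (f : (HyperedgeSlot n r → Bool) → ℝ) {A : Finset (Fin n)} {u : Fin n}
    (hu : u ∉ A) : D p f (insert u A) u = G p f A {u} := by
  have : ({u} : Finset (Fin n)) = insert u ∅ := rfl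
  rw [this, G_insert p f A ∅ (Finset.notMem_empty _), G_empty, G_empty]
  unfold D
  rw [Finset.erase_insert hu]

lemma D_sub_Av (p : ℝ) (f : (HyperedgeSlot n r → Bool) → ℝ) {A : Finset (Fin n)} {u : Fin n}
    (hu : u ∉ A) {e : HyperedgeSlot n r} (hue : u ∈ e.1) :
    (fun x => D p f (insert u A) u x - Av p {e} (D p f (insert u A) u) x)
      = fun x => Q p A f x - Av p {e} (Q p A f) x := by
  unfold D
  rw [Finset.erase_insert hu, Av_sub]
  have h1 : ({e} : Finset (HyperedgeSlot n r)) ⊆ touch r (insert u A) := by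
    intro e' he'
    rw [Finset.mem_singleton] at he'
    rw [he', mem_touch, Finset.disjoint_left]
    push Not
    exact ⟨u, hue, Finset.mem_insert_self _ _⟩
  have : Av p {e} (Q p (insert u A) f) = Q p (insert u A) f := by
    unfold Q
    rw [Av_of_subset p h1]
  rw [this]
  funext x
  ring

lemma D_inf_le {p : ℝ} (h0 : 0 ≤ p) (h1 : p ≤ 1) (f : (HyperedgeSlot n r → Bool) → ℝ)
    {A : Finset (Fin n)} {u : Fin n}
    (hu : u ∉ A) {e : HyperedgeSlot n r} (hue : u ∈ e.1) :
    N2 p (fun x => D p f (insert u A) u x - Av p {e} (D p f (insert u A) u) x) ≤ inf p f e := by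
  rw [D_sub_Av p f hu hue]
  have : (fun x => Q p A f x - Av p {e} (Q p A f) x) = Q p A (fun x => f x - Av p {e} f x) := by
    unfold Q
    rw [Av_sub]
    funext x
    rw [Av_comm]
  rw [this]
  exact N2_Av_le h0 h1 _ _

lemma Q_sub_Av_eq_G (p : ℝ) (f : (HyperedgeSlot n r → Bool) → ℝ) (A : Finset (Fin n))
    (e : HyperedgeSlot n r) :
    (fun x => Q p A f x - Av p {e} (Q p A f) x)
      = fun x => G p f A e.1 x - Av p {e} (G p f A e.1) x := by
  have h1 : Av p {e} (G p f A e.1) = fun x => ∑ J ∈ e.1.powerset,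
      (-1 : ℝ) ^ J.card * Av p {e} (Q p (A ∪ J) f) x := by
    unfold G
    rw [Av_sum]
    funext x
    refine Finset.sum_congr rfl fun J _ => ?_
    rw [Av_smul]
  rw [h1]
  funext x
  unfold G
  rw [← Finset.sum_sub_distrib]
  rw [Finset.sum_eq_single ∅]
  · simp
  · intro J hJ hne
    have : Av p {e} (Q p (A ∪ J) f) = Q p (A ∪ J) f := by
      unfold Q
      rw [Av_of_subset p]
      intro e' he'
      rw [Finset.mem_singleton] at he'
      rw [he', mem_touch, Finset.disjoint_left]
      push Not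
      obtain ⟨v, hv⟩ := Finset.nonempty_iff_ne_empty.2 hne
      exact ⟨v, Finset.mem_powerset.1 hJ hv, Finset.mem_union_right _ hv⟩
    rw [this]
    ring
  · intro h
    exact absurd (Finset.empty_mem_powerset _) h

lemma D_inf_le' {p : ℝ} (h0 : 0 ≤ p) (h1 : p ≤ 1) (f : (HyperedgeSlot n r → Bool) → ℝ)
    {A : Finset (Fin n)} {u : Fin n}
    (hu : u ∉ A) {e : HyperedgeSlot n r} (hue : u ∈ e.1) :
    N2 p (fun x => D p f (insert u A) u x - Av p {e} (D p f (insert u A) u) x)
      ≤ N2 p (G p f A e.1) := by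
  rw [D_sub_Av p f hu hue, Q_sub_Av_eq_G]
  exact N2_sub_Av_le h0 h1 _ _

lemma Ex_abs_D_le {p : ℝ} (h0 : 0 ≤ p) (h1 : p ≤ 1) {f : (HyperedgeSlot n r → Bool) → ℝ}
    (hf01 : ∀ x, f x = 0 ∨ f x = 1) {A : Finset (Fin n)} {u : Fin n}
    (hu : u ∉ A) :
    Ex p (fun x => |D p f (insert u A) u x|) ≤ 2 * ∑ e ∈ touch r {u}, inf p f e := by
  have e1 : D p f (insert u A) u = Q p A (fun x => f x - Q p {u} f x) := by
    unfold D
    rw [Finset.erase_insert hu, Q_sub, Q_Q, Finset.union_comm, Finset.insert_eq]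
  rw [e1]
  calc Ex p (fun x => |Q p A (fun x => f x - Q p {u} f x) x|)
      ≤ Ex p (Q p A (fun x => |f x - Q p {u} f x|)) :=
        Ex_mono h0 h1 (fun x => abs_Av_le h0 h1 _ _ x)
    _ = Ex p (fun x => |f x - Q p {u} f x|) := Ex_Av _ _ _
    _ = 2 * N2 p (fun x => f x - Q p {u} f x) := abs_dev h0 h1 hf01 _
    _ ≤ _ := by
        have := efron_stein h0 h1 f (touch r {u})
        have h3 : N2 p (fun x => f x - Q p {u} f x) ≤ ∑ e ∈ touch r {u}, inf p f e := this
        linarith

theorem core {p : ℝ} (h0 : 0 < p) (h1 : p < 1) {f : (HyperedgeSlot n r → Bool) → ℝ}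
    (hf : Inv f) (hf01 : ∀ x, f x = 0 ∨ f x = 1) {A : Finset (Fin n)} {u : Fin n}
    (hu : u ∉ A) {K : ℝ} (hK : 1 ≤ K) :
    2 * Real.log K * (N2 p (G p f A {u}) - K / Real.sqrt (A.card + 1) * ∑ e ∈ touch r {u}, inf p f e)
      ≤ cS p * ∑ e ∈ touch r (insert u A),
          N2 p (fun x => D p f (insert u A) u x - Av p {e} (D p f (insert u A) u) x) := by
  have hLS := LS h0 h1 (D p f (insert u A) u) (touch r (insert u A))
  refine le_trans ?_ hLS
  set U := insert u A with hU
  have huU : u ∈ U := Finset.mem_insert_self _ _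
  have hcard : (U.card : ℝ) = A.card + 1 := by
    rw [hU, Finset.card_insert_of_notMem hu]; push_cast; ring
  have hkpos : (0 : ℝ) < A.card + 1 := by positivity
  have key : ∀ x, 2 * Real.log K * (Q p U (fun x => D p f U u x ^ 2) x
      - K / (2 * Real.sqrt (A.card + 1)) * Q p U (fun x => |D p f U u x|) x)
      ≤ Psi (Av p (touch r U) (fun x => D p f U u x ^ 2) x)
        (Av p (touch r U) (fun x => |D p f U u x|) x) := by
    intro x
    apply Psi_lower hkpos hK
    · exact Av_nonneg h0.le h1.le _ (fun _ => sq_nonneg _) x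
    · exact Av_nonneg h0.le h1.le _ (fun _ => abs_nonneg _) x
    · have := Av_mul_sq_le h0.le h1.le (touch r U) (fun _ => 1) (fun x => |D p f U u x|) x
      simp only [one_mul, one_pow, sq_abs] at this
      rw [Av_const] at this
      rwa [one_mul] at this
    · exact Av_sq_zero_of_abs h0 h1 _ _ x
    · have := D_sq_le h0.le h1.le hf hf01 U huU x
      rwa [hcard] at this
  refine le_trans ?_ (Ex_mono h0.le h1.le key)
  rw [Ex_smul, Ex_sub, Ex_smul]
  have hlK : 0 ≤ Real.log K := Real.log_nonneg hK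
  have e1 : Ex p (Q p U (fun x => D p f U u x ^ 2)) = N2 p (G p f A {u}) := by
    unfold Q
    rw [Ex_Av, hU, D_eq_G p f hu]
    rfl
  have e2 : Ex p (Q p U (fun x => |D p f U u x|)) ≤ 2 * ∑ e ∈ touch r {u}, inf p f e := by
    unfold Q
    rw [Ex_Av]
    exact Ex_abs_D_le h0.le h1.le hf01 hu
  rw [e1]
  have hs : 0 < Real.sqrt (A.card + 1) := Real.sqrt_pos.2 hkpos
  have h5 : K / (2 * Real.sqrt (A.card + 1)) * Ex p (Q p U (fun x => |D p f U u x|))
      ≤ K / Real.sqrt (A.card + 1) * ∑ e ∈ touch r {u}, inf p f e := by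
    calc _ ≤ K / (2 * Real.sqrt (A.card + 1)) * (2 * ∑ e ∈ touch r {u}, inf p f e) := by
          gcongr
      _ = _ := by field_simp
  gcongr

lemma inf_nonneg {p : ℝ} (h0 : 0 ≤ p) (h1 : p ≤ 1) (f : (HyperedgeSlot n r → Bool) → ℝ)
    (e : HyperedgeSlot n r) : 0 ≤ inf p f e := N2_nonneg h0 h1 _

theorem sum_D_inf_le {p : ℝ} (h0 : 0 ≤ p) (h1 : p ≤ 1) (f : (HyperedgeSlot n r → Bool) → ℝ)
    {A : Finset (Fin n)} {u : Fin n} (hu : u ∉ A) :
    ∑ e ∈ touch r (insert u A),
          N2 p (fun x => D p f (insert u A) u x - Av p {e} (D p f (insert u A) u) x)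
      ≤ ∑ e ∈ touch r {u}, inf p f e := by
  have hsub : touch r {u} ⊆ touch r (insert u A) :=
    touch_mono (by simp)
  rw [← Finset.sum_subset hsub]
  · refine Finset.sum_le_sum fun e he => ?_
    rw [mem_touch_singleton] at he
    exact D_inf_le h0 h1 f hu he
  · intro e he hne
    have : e ∈ touch r A := by
      rw [mem_touch, Finset.disjoint_left] at he ⊢
      push Not at he ⊢
      obtain ⟨v, hv, hv2⟩ := he
      rcases Finset.mem_insert.1 hv2 with h | h
      · exact absurd (mem_touch_singleton.2 (h ▸ hv)) hne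
      · exact ⟨v, hv, h⟩
    rw [D_flat p f hu this]
    exact N2_zero p fun _ => rfl

theorem sum_D_inf_le' {p : ℝ} (h0 : 0 ≤ p) (h1 : p ≤ 1) {f : (HyperedgeSlot n r → Bool) → ℝ}
    {A : Finset (Fin n)} {u : Fin n} (hu : u ∉ A) {M : ℝ} (hM : 0 ≤ M)
    (hMe : ∀ e : HyperedgeSlot n r, Disjoint A e.1 → N2 p (G p f A e.1) ≤ M) :
    ∑ e ∈ touch r (insert u A),
          N2 p (fun x => D p f (insert u A) u x - Av p {e} (D p f (insert u A) u) x)
      ≤ (touch r {u}).card * M := by
  have hsub : touch r {u} ⊆ touch r (insert u A) :=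
    touch_mono (by simp)
  rw [← Finset.sum_subset hsub]
  · rw [← nsmul_eq_mul, ← Finset.sum_const]
    refine Finset.sum_le_sum fun e he => ?_
    by_cases hA : e ∈ touch r A
    · rw [D_flat p f hu hA, N2_zero p fun _ => rfl]
      exact hM
    · rw [mem_touch_singleton] at he
      rw [mem_touch, not_not] at hA
      exact (D_inf_le' h0 h1 f hu he).trans (hMe e hA.symm)
  · intro e he hne
    have : e ∈ touch r A := by
      rw [mem_touch, Finset.disjoint_left] at he ⊢
      push Not at he ⊢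
      obtain ⟨v, hv, hv2⟩ := he
      rcases Finset.mem_insert.1 hv2 with h | h
      · exact absurd (mem_touch_singleton.2 (h ▸ hv)) hne
      · exact ⟨v, hv, h⟩
    rw [D_flat p f hu this]
    exact N2_zero p fun _ => rfl

end Crest.Agent.SymInf
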