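import Mathlib
import Crest.Agent.SymInf.Core
set_option autoImplicit false
set_option linter.unusedSectionVars false
open Finset
open Crest.CombinatoricsR.HypergraphCube

namespace Crest.Agent.SymInf

section seq
variable {n : ℕ} {N : ℕ → ℕ → ℝ} (hN : ∀ a b, 0 ≤ N a b)
  (hP : ∀ a b, a + b < n → N a b = N (a + 1) b + N a (b + 1))
include hN hP

lemma seq_anti (a b j : ℕ) (h : a + j + b ≤ n) : N (a + j) b ≤ N a b := by
  induction j with
  | zero => exact le_refl _
  | succ j ih =>
    have h1 := ih (by omega)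
    have h2 := hP (a + j) b (by omega)
    have h3 := hN (a + j) (b + 1)
    have e : a + (j + 1) = a + j + 1 := by omega
    rw [e]
    linarith

lemma seq_step (a b s : ℕ) (h : a + s + b + 1 ≤ n) : (s : ℝ) * N (a + s) (b + 1) ≤ N a b := by
  have h1 : ∀ t : ℕ, t ≤ s → N a b = N (a + t) b + ∑ i ∈ Finset.range t, N (a + i) (b + 1) := by
    intro t
    induction t with
    | zero => intro _; simp
    | succ t ih =>
      intro ht
      rw [Finset.sum_range_succ]
      have h2 := ih (by omega)
      have h3 := hP (a + t) b (by omega)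
      have e : a + (t + 1) = a + t + 1 := by omega
      rw [e]
      linarith
  have h2 := h1 s le_rfl
  have h3 : ∑ i ∈ Finset.range s, N (a + i) (b + 1) ≥ ∑ i ∈ Finset.range s, N (a + s) (b + 1) := by
    refine Finset.sum_le_sum fun i hi => ?_
    rw [Finset.mem_range] at hi
    have := seq_anti hN hP (a + i) (b + 1) (s - i) (by omega)
    have e : a + i + (s - i) = a + s := by omega
    rwa [e] at this
  rw [Finset.sum_const, Finset.card_range, nsmul_eq_mul] at h3
  have h4 := hN (a + s) b
  linarith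

lemma seq_iter (a b s j : ℕ) (h : a + j * s + b + j ≤ n) :
    (s : ℝ) ^ j * N (a + j * s) (b + j) ≤ N a b := by
  induction j with
  | zero => simp
  | succ j ih =>
    have e1 : a + (j + 1) * s = a + j * s + s := by ring
    have h1 := ih (by
      have : a + j * s ≤ a + (j + 1) * s := by rw [e1]; omega
      omega)
    have h2 := seq_step hN hP (a + j * s) (b + j) s (by
      rw [e1] at h
      omega)
    rw [e1]
    have e2 : b + (j + 1) = b + j + 1 := by omega
    rw [e2]
    calc (s : ℝ) ^ (j + 1) * N (a + j * s + s) (b + j + 1)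
        = (s : ℝ) ^ j * (s * N (a + j * s + s) (b + j + 1)) := by ring
      _ ≤ (s : ℝ) ^ j * N (a + j * s) (b + j) := by gcongr
      _ ≤ _ := h1

theorem seq_bound (r k0 s : ℕ) (hr : 1 ≤ r) {x η κ c1 : ℝ} (hκ : 0 < κ) (hc1 : 0 < c1)
    (hη : 0 ≤ η) (hx0 : 0 ≤ x) (hx : 0 < n → N 0 1 ≤ x)
    (hI1 : ∀ a, k0 ≤ a → a < n → κ * (N a 1 - η) ≤ x)
    (hI2 : ∀ a, k0 ≤ a → a + r ≤ n → κ * (N a 1 - η) ≤ c1 * N a r)
    (hI3 : ∀ a, k0 ≤ a → a < n → n < a + r → κ * (N a 1 - η) ≤ 0)
    (hs : 2 * c1 ≤ (s : ℝ) ^ (r - 1) * κ) :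
    ∑ m ∈ Finset.range n, N m 1 ≤ k0 * x + 2 * ((r - 1 : ℕ) * s : ℝ) * (x / κ + η) + 2 * n * η := by
  set l := (r - 1) * s with hl
  have hlr : ((r - 1 : ℕ) * s : ℝ) = (l : ℝ) := by rw [hl]; push_cast; ring
  rw [hlr]
  -- halving
  have hD : ∀ a, k0 ≤ a → a + l < n → N (a + l) 1 ≤ N a 1 / 2 + η := by
    intro a ha hal
    have hna := hN a 1
    by_cases hc : N (a + l) 1 ≤ η
    · linarith
    push Not at hc
    by_cases hcase : a + l + r ≤ n
    · have h1 := hI2 (a + l) (by omega) hcase
      have h2 := seq_iter hN hP a 1 s (r - 1) (by rw [← hl]; omega)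
      have e1 : 1 + (r - 1) = r := by omega
      rw [← hl, e1] at h2
      have h3 : 0 < N (a + l) 1 - η := by linarith
      have h4 : 2 * c1 * (N (a + l) 1 - η) ≤ (s : ℝ) ^ (r - 1) * κ * (N (a + l) 1 - η) := by gcongr
      have h5 : (s : ℝ) ^ (r - 1) * (κ * (N (a + l) 1 - η)) ≤ (s : ℝ) ^ (r - 1) * (c1 * N (a + l) r) := by
        gcongr
      have h6 : c1 * ((s : ℝ) ^ (r - 1) * N (a + l) r) ≤ c1 * N a 1 := by gcongr
      have h7 : c1 * (2 * (N (a + l) 1 - η)) ≤ c1 * N a 1 := by nlinarith
      have h8 := le_of_mul_le_mul_left h7 hc1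
      linarith
    · have h1 := hI3 (a + l) (by omega) hal (by omega)
      have h3 : 0 < N (a + l) 1 - η := by linarith
      have h4 := mul_pos hκ h3
      linarith
  have hmono : ∀ a m, a ≤ m → m < n → N m 1 ≤ N a 1 := by
    intro a m ham hm
    have := seq_anti hN hP a 1 (m - a) (by omega)
    have e : a + (m - a) = m := by omega
    rwa [e] at this
  -- tail sum
  have hE : ∀ a, k0 ≤ a → a < n → ∑ m ∈ Finset.Ico a n, N m 1 ≤ 2 * l * N a 1 + 2 * n * η := by
    intro a ha han
    have hna := hN a 1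
    have hnη : 0 ≤ (n : ℝ) * η := by positivity
    have hlN : 0 ≤ (l : ℝ) * N a 1 := by positivity
    by_cases hc : a + l ≤ n
    · have h1 := Finset.sum_Ico_consecutive (fun m => N m 1) (show a ≤ a + l by omega) hc
      have h2 : ∑ m ∈ Finset.Ico a (a + l), N m 1 ≤ l * N a 1 := by
        calc ∑ m ∈ Finset.Ico a (a + l), N m 1 ≤ ∑ m ∈ Finset.Ico a (a + l), N a 1 := by
              refine Finset.sum_le_sum fun m hm => ?_
              rw [Finset.mem_Ico] at hm
              exact hmono a m hm.1 (by omega)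
          _ = _ := by
              rw [Finset.sum_const, Nat.card_Ico, nsmul_eq_mul]
              congr 2
              omega
      have h3 : ∑ m ∈ Finset.Ico (a + l) n, N m 1 ≤ ∑ m ∈ Finset.Ico a (n - l), (N m 1 / 2 + η) := by
        have e : ∑ m ∈ Finset.Ico (a + l) n, N m 1 = ∑ m ∈ Finset.Ico a (n - l), N (m + l) 1 := by
          rw [Finset.sum_Ico_add' (fun m => N m 1) a (n - l) l]
          congr 2
          omega
        rw [e]
        refine Finset.sum_le_sum fun m hm => ?_
        rw [Finset.mem_Ico] at hm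
        exact hD m (by omega) (by omega)
      have h4 : ∑ m ∈ Finset.Ico a (n - l), (N m 1 / 2 + η)
          ≤ ∑ m ∈ Finset.Ico a n, (N m 1 / 2 + η) := by
        apply Finset.sum_le_sum_of_subset_of_nonneg
        · exact Finset.Ico_subset_Ico le_rfl (by omega)
        · intro m _ _
          have := hN m 1
          positivity
      have h5 : ∑ m ∈ Finset.Ico a n, (N m 1 / 2 + η)
          = (∑ m ∈ Finset.Ico a n, N m 1) / 2 + ((n - a : ℕ) : ℝ) * η := by
        rw [Finset.sum_add_distrib, Finset.sum_div, Finset.sum_const, Nat.card_Ico, nsmul_eq_mul]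
      have h6 : ((n - a : ℕ) : ℝ) * η ≤ n * η := by
        have : ((n - a : ℕ) : ℝ) ≤ n := by exact_mod_cast Nat.sub_le n a
        gcongr
      linarith
    · have h2 : ∑ m ∈ Finset.Ico a n, N m 1 ≤ l * N a 1 := by
        calc ∑ m ∈ Finset.Ico a n, N m 1 ≤ ∑ m ∈ Finset.Ico a n, N a 1 := by
              refine Finset.sum_le_sum fun m hm => ?_
              rw [Finset.mem_Ico] at hm
              exact hmono a m hm.1 (by omega)
          _ = ((n - a : ℕ) : ℝ) * N a 1 := by
              rw [Finset.sum_const, Nat.card_Ico, nsmul_eq_mul]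
          _ ≤ l * N a 1 := by
              have : ((n - a : ℕ) : ℝ) ≤ l := by exact_mod_cast (by omega : n - a ≤ l)
              gcongr
      linarith
  have hhx : ∀ m, m < n → N m 1 ≤ x := fun m hm =>
    (hmono 0 m (Nat.zero_le _) hm).trans (hx (by omega))
  have hlx : 0 ≤ (l : ℝ) * (x / κ + η) := by positivity
  have hnη : 0 ≤ (n : ℝ) * η := by positivity
  by_cases hk : k0 < n
  · have h1 := Finset.sum_range_add_sum_Ico (fun m => N m 1) hk.le
    have h2 : ∑ m ∈ Finset.range k0, N m 1 ≤ k0 * x := by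
      calc ∑ m ∈ Finset.range k0, N m 1 ≤ ∑ m ∈ Finset.range k0, x := by
            refine Finset.sum_le_sum fun m hm => ?_
            rw [Finset.mem_range] at hm
            exact hhx m (by omega)
        _ = _ := by simp
    have h3 := hE k0 le_rfl hk
    have h4 : N k0 1 ≤ x / κ + η := by
      have := hI1 k0 le_rfl hk
      have h5 : N k0 1 - η ≤ x / κ := by
        rw [le_div_iff₀ hκ]
        linarith
      linarith
    have h5 : 2 * (l : ℝ) * N k0 1 ≤ 2 * l * (x / κ + η) := by gcongr
    linarith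
  · have h2 : ∑ m ∈ Finset.range n, N m 1 ≤ n * x := by
      calc ∑ m ∈ Finset.range n, N m 1 ≤ ∑ m ∈ Finset.range n, x := by
            refine Finset.sum_le_sum fun m hm => ?_
            rw [Finset.mem_range] at hm
            exact hhx m (by omega)
        _ = _ := by simp
    have h3 : (n : ℝ) * x ≤ k0 * x := by
      have : (n : ℝ) ≤ k0 := by exact_mod_cast (by omega : n ≤ k0)
      gcongr
    linarith

end seq

variable {n r : ℕ}

/-- the first `a` vertices -/
def low (n a : ℕ) : Finset (Fin n) := Finset.univ.filter (fun i => i.1 < a)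
/-- the next `b` vertices -/
def mid (n a b : ℕ) : Finset (Fin n) := Finset.univ.filter (fun i => a ≤ i.1 ∧ i.1 < a + b)

lemma card_low {a : ℕ} (h : a ≤ n) : (low n a).card = a := by
  unfold low
  rw [Fin.card_filter_val_lt]
  exact min_eq_right h

lemma card_mid {a b : ℕ} (h : a + b ≤ n) : (mid n a b).card = b := by
  have h1 : mid n a b = low n (a + b) \ low n a := by
    ext i
    simp only [mid, low, Finset.mem_filter, Finset.mem_univ, true_and, Finset.mem_sdiff, not_lt]
    tauto
  have h2 : low n a ⊆ low n (a + b) := by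
    intro i
    simp only [low, Finset.mem_filter, Finset.mem_univ, true_and]
    omega
  rw [h1, Finset.card_sdiff_of_subset h2, card_low h, card_low (by omega)]
  omega

lemma disj_low_mid (a b : ℕ) : Disjoint (low n a) (mid n a b) := by
  rw [Finset.disjoint_left]
  intro i
  simp only [low, mid, Finset.mem_filter, Finset.mem_univ, true_and]
  omega

/-- the norms as a function of the sizes -/
noncomputable def Nf (p : ℝ) (f : (HyperedgeSlot n r → Bool) → ℝ) (a b : ℕ) : ℝ :=
  N2 p (G p f (low n a) (mid n a b))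

lemma Nf_eq (p : ℝ) {f : (HyperedgeSlot n r → Bool) → ℝ} (hf : Inv f) {A B : Finset (Fin n)}
    (hAB : Disjoint A B) {a b : ℕ} (ha : A.card = a) (hb : B.card = b) :
    N2 p (G p f A B) = Nf p f a b := by
  have hle : a + b ≤ n := by
    have h1 := Finset.card_le_univ (A ∪ B)
    rw [Finset.card_union_of_disjoint hAB, Fintype.card_fin] at h1
    omega
  exact N2_G_eq p hf hAB (disj_low_mid a b) (by rw [ha, card_low (by omega)])
    (by rw [hb, card_mid hle])

lemma Nf_pascal (p : ℝ) {f : (HyperedgeSlot n r → Bool) → ℝ} (hf : Inv f) (a b : ℕ)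
    (h : a + b < n) : Nf p f a b = Nf p f (a + 1) b + Nf p f a (b + 1) := by
  have hv : (⟨a + b, h⟩ : Fin n) ∉ mid n a b := by simp [mid]
  have hv2 : (⟨a + b, h⟩ : Fin n) ∉ low n a := by simp [low]
  have h1 := pascal p f (low n a) (mid n a b) hv
  have hd := disj_low_mid (n := n) a b
  have h2 : N2 p (G p f (insert (⟨a + b, h⟩ : Fin n) (low n a)) (mid n a b)) = Nf p f (a + 1) b := by
    apply Nf_eq p hf
    · rw [Finset.disjoint_insert_left]
      exact ⟨hv, hd⟩
    · rw [Finset.card_insert_of_notMem hv2, card_low (by omega)]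
    · exact card_mid (by omega)
  have h3 : N2 p (G p f (low n a) (insert (⟨a + b, h⟩ : Fin n) (mid n a b))) = Nf p f a (b + 1) := by
    apply Nf_eq p hf
    · rw [Finset.disjoint_insert_right]
      exact ⟨hv2, hd⟩
    · exact card_low (by omega)
    · rw [Finset.card_insert_of_notMem hv, card_mid (by omega)]
  rw [h2, h3] at h1
  exact h1

lemma Nf_nonneg {p : ℝ} (h0 : 0 ≤ p) (h1 : p ≤ 1) (f : (HyperedgeSlot n r → Bool) → ℝ)
    (a b : ℕ) : 0 ≤ Nf p f a b := N2_nonneg h0 h1 _

lemma touch_univ (hr : 1 ≤ r) : touch r (Finset.univ : Finset (Fin n)) = Finset.univ := by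
  ext e
  rw [mem_touch]
  have : e.1.Nonempty := by
    rw [← Finset.card_pos, e.2]; omega
  obtain ⟨v, hv⟩ := this
  constructor
  · intro _; exact Finset.mem_univ _
  · intro _ h
    exact (Finset.disjoint_left.1 h hv) (Finset.mem_univ _)

theorem var_eq_sum (p : ℝ) {f : (HyperedgeSlot n r → Bool) → ℝ} (hf : Inv f)
    (hf01 : ∀ x, f x = 0 ∨ f x = 1) (hr : 1 ≤ r) :
    Ex p f * (1 - Ex p f) = ∑ m ∈ Finset.range n, Nf p f m 1 := by
  have h1 : ∀ t : ℕ, t ≤ n → Nf p f 0 0 = Nf p f t 0 + ∑ i ∈ Finset.range t, Nf p f i 1 := by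
    intro t
    induction t with
    | zero => intro _; simp
    | succ t ih =>
      intro ht
      rw [Finset.sum_range_succ]
      have h2 := ih (by omega)
      have h3 := Nf_pascal p hf t 0 (by omega)
      rw [zero_add] at h3
      linarith
  have h2 := h1 n le_rfl
  have e1 : Nf p f 0 0 = Ex p f := by
    unfold Nf
    have a1 : mid n 0 0 = ∅ := by
      ext i; simp [mid]
    have a2 : low n 0 = ∅ := by
      ext i; simp [low]
    rw [a1, a2, G_empty, Q_empty]
    unfold N2
    congr 1
    funext x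
    rcases hf01 x with h | h <;> rw [h] <;> norm_num
  have e2 : Nf p f n 0 = Ex p f ^ 2 := by
    unfold Nf
    have a1 : mid n n 0 = ∅ := by
      ext i; simp [mid]
    have a2 : low n n = Finset.univ := by
      ext i; simp [low]
    rw [a1, a2, G_empty]
    unfold Q N2
    rw [touch_univ hr]
    have : (fun x => Av p Finset.univ f x ^ 2) = fun _ => Ex p f ^ 2 := by
      funext x
      rw [Av_univ]
    rw [this, Ex_const]
  rw [e1, e2] at h2
  linarith

theorem var_bound {p : ℝ} (h0 : 0 < p) (h1 : p < 1) {f : (HyperedgeSlot n r → Bool) → ℝ}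
    (hf : Inv f) (hf01 : ∀ x, f x = 0 ∨ f x = 1) (hr : 1 ≤ r) (hrn : r ≤ n)
    {K : ℝ} (hK : 1 < K) (k0 s : ℕ) (hk0 : 1 ≤ k0)
    (hs : (n : ℝ) ^ (r - 1) * cS p ≤ (s : ℝ) ^ (r - 1) * Real.log K) :
    Ex p f * (1 - Ex p f) ≤ (r / n * ∑ e, inf p f e) *
      (k0 + 2 * ((r - 1 : ℕ) * s : ℝ) * (cS p / (2 * Real.log K) + K / Real.sqrt k0)
        + 2 * n * (K / Real.sqrt k0)) := by
  have hn : 0 < n := by omega
  have hnR : (0 : ℝ) < n := by exact_mod_cast hn
  have hcS : 0 < cS p := by
    unfold cS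
    have : 0 ≤ Real.log (1 / (p * (1 - p))) := by
      apply Real.log_nonneg
      rw [le_div_iff₀ (mul_pos h0 (by linarith))]
      nlinarith
    linarith
  have hlK : 0 < Real.log K := Real.log_pos hK
  set x := (r / n * ∑ e, inf p f e : ℝ) with hx
  have hx0 : 0 ≤ x := by
    have : 0 ≤ ∑ e, inf p f e := Finset.sum_nonneg fun e _ => inf_nonneg h0.le h1.le f e
    exact mul_nonneg (div_nonneg (Nat.cast_nonneg _) (Nat.cast_nonneg _)) this
  have hxu : ∀ u : Fin n, ∑ e ∈ touch r {u}, inf p f e = x := by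
    intro u
    have := sum_touch p hf u
    rw [hx]
    field_simp
    linarith
  set u0 : Fin n := ⟨0, hn⟩
  -- number of slots through a vertex
  have hcard : ∀ u : Fin n, ((touch r {u}).card : ℝ) ≤ (n : ℝ) ^ (r - 1) := by
    intro u
    have h2 : (touch r {u}).card ≤ (Finset.powersetCard (r - 1) (Finset.univ : Finset (Fin n))).card := by
      apply Finset.card_le_card_of_injOn (fun e => e.1.erase u)
      · intro e he
        have he' := mem_touch_singleton.1 (Finset.mem_coe.1 he)
        rw [Finset.mem_coe, Finset.mem_powersetCard]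
        refine ⟨Finset.subset_univ _, ?_⟩
        rw [Finset.card_erase_of_mem he', e.2]
      · intro e he e' he' hee
        have h3 := mem_touch_singleton.1 (Finset.mem_coe.1 he)
        have h4 := mem_touch_singleton.1 (Finset.mem_coe.1 he')
        apply Subtype.ext
        simp only at hee
        rw [← Finset.insert_erase h3, ← Finset.insert_erase h4, hee]
    rw [Finset.card_powersetCard, Finset.card_univ, Fintype.card_fin] at h2
    have h3 := Nat.choose_le_pow n (r - 1)
    exact_mod_cast h2.trans h3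
  set κ := 2 * Real.log K / cS p with hκ
  have hκp : 0 < κ := div_pos (mul_pos two_pos hlK) hcS
  set η := K / Real.sqrt k0 * x with hη
  have hk0R : (0 : ℝ) < k0 := by exact_mod_cast hk0
  have hsk : 0 < Real.sqrt k0 := Real.sqrt_pos.2 hk0R
  have hη0 : 0 ≤ η := mul_nonneg (div_nonneg (by linarith) hsk.le) hx0
  set c1 := (n : ℝ) ^ (r - 1) with hc1
  have hc1p : 0 < c1 := pow_pos hnR _
  -- the basic inequality
  have base : ∀ a, k0 ≤ a → (ha : a < n) → ∀ M : ℝ,
      ∑ e ∈ touch r (insert (⟨a, ha⟩ : Fin n) (low n a)),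
          N2 p (fun x => D p f (insert (⟨a, ha⟩ : Fin n) (low n a)) ⟨a, ha⟩ x
            - Av p {e} (D p f (insert (⟨a, ha⟩ : Fin n) (low n a)) ⟨a, ha⟩) x) ≤ M →
        κ * (Nf p f a 1 - η) ≤ M := by
    intro a hka ha M hM
    have hu : (⟨a, ha⟩ : Fin n) ∉ low n a := by simp [low]
    have hc := core h0 h1 hf hf01 hu hK.le
    have e1 : N2 p (G p f (low n a) {(⟨a, ha⟩ : Fin n)}) = Nf p f a 1 := by
      apply Nf_eq p hf
      · rw [Finset.disjoint_singleton_right]; exact hu
      · exact card_low ha.le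
      · simp
    rw [e1, hxu, card_low ha.le] at hc
    have h3 : K / Real.sqrt (a + 1) * x ≤ η := by
      rw [hη]
      have : Real.sqrt k0 ≤ Real.sqrt (a + 1) := by
        apply Real.sqrt_le_sqrt
        have : (k0 : ℝ) ≤ a := by exact_mod_cast hka
        linarith
      exact mul_le_mul_of_nonneg_right
        (div_le_div_of_nonneg_left (by linarith) hsk this) hx0
    have h4 : 2 * Real.log K * (Nf p f a 1 - η) ≤ cS p * M := by
      calc 2 * Real.log K * (Nf p f a 1 - η) ≤ 2 * Real.log K * (Nf p f a 1 - K / Real.sqrt (a + 1) * x) :=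
            mul_le_mul_of_nonneg_left (by linarith) (by linarith)
        _ ≤ _ := hc
        _ ≤ _ := mul_le_mul_of_nonneg_left hM hcS.le
    rw [hκ, div_mul_eq_mul_div, div_le_iff₀ hcS]
    linarith
  have hI1 : ∀ a, k0 ≤ a → a < n → κ * (Nf p f a 1 - η) ≤ x := by
    intro a hka ha
    apply base a hka ha
    rw [← hxu ⟨a, ha⟩]
    exact sum_D_inf_le h0.le h1.le f (by simp [low])
  have hI2 : ∀ a, k0 ≤ a → a + r ≤ n → κ * (Nf p f a 1 - η) ≤ c1 * Nf p f a r := by
    intro a hka har
    apply base a hka (by omega)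
    have hu : (⟨a, by omega⟩ : Fin n) ∉ low n a := by simp [low]
    refine (sum_D_inf_le' h0.le h1.le hu (Nf_nonneg h0.le h1.le f a r) ?_).trans ?_
    · intro e he
      exact le_of_eq (Nf_eq p hf he (card_low (by omega)) e.2)
    · exact mul_le_mul_of_nonneg_right (hcard _) (Nf_nonneg h0.le h1.le f a r)
  have hI3 : ∀ a, k0 ≤ a → a < n → n < a + r → κ * (Nf p f a 1 - η) ≤ 0 := by
    intro a hka ha har
    apply base a hka ha
    have hu : (⟨a, ha⟩ : Fin n) ∉ low n a := by simp [low]
    have := sum_D_inf_le' h0.le h1.le (f := f) (r := r) hu (le_refl (0 : ℝ)) (by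
      intro e he
      exfalso
      have h2 := Finset.card_le_univ (low n a ∪ e.1)
      rw [Finset.card_union_of_disjoint he, Fintype.card_fin, card_low ha.le, e.2] at h2
      omega)
    simpa using this
  have hx1 : 0 < n → Nf p f 0 1 ≤ x := by
    intro _
    have e1 : N2 p (G p f ∅ {u0}) = Nf p f 0 1 := by
      apply Nf_eq p hf
      · simp
      · simp
      · simp
    rw [← e1, ← D_eq_G p f (Finset.notMem_empty _), ← hxu u0]
    have e2 : D p f (insert u0 ∅) u0 = fun x => f x - Q p {u0} f x := by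
      unfold D
      rw [Finset.erase_insert (Finset.notMem_empty _), Q_empty]
      rfl
    rw [e2]
    exact efron_stein h0.le h1.le f (touch r {u0})
  have hs' : 2 * c1 ≤ (s : ℝ) ^ (r - 1) * κ := by
    rw [hκ, mul_div_assoc', le_div_iff₀ hcS]
    nlinarith
  have hfin := seq_bound (n := n) (N := Nf p f) (fun a b => Nf_nonneg h0.le h1.le f a b)
    (fun a b h => Nf_pascal p hf a b h) r k0 s hr hκp hc1p hη0 hx0 hx1 hI1 hI2 hI3 hs'
  rw [var_eq_sum p hf hf01 hr]
  refine hfin.trans (le_of_eq ?_)
  rw [hη, hκ]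
  field_simp

end Crest.Agent.SymInf
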