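import Mathlib
import Crest.Agent.SymInf.Var
set_option autoImplicit false
set_option linter.unusedSectionVars false
open Finset
open Crest.CombinatoricsR.HypergraphCube

namespace Crest.Agent.SymInf

lemma bernoulliProb_eq {ι : Type*} [Fintype ι] [DecidableEq ι] (p : ℝ) (E : Set (ι → Bool))
    (F : (ι → Bool) → ℝ) (h1 : ∀ x, x ∈ E → F x = 1) (h0 : ∀ x, x ∉ E → F x = 0) :
    Crest.FinProb.bernoulliProb p E = Ex p F := by
  unfold Crest.FinProb.bernoulliProb Ex
  rw [Finset.sum_filter]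
  refine Finset.sum_congr rfl fun x _ => ?_
  have hW : Crest.FinProb.bernoulliWeight p x = W p x := rfl
  split_ifs with h
  · rw [h1 x h, hW, mul_one]
  · rw [h0 x h, mul_zero]

/-- the 0-1 valued version -/
def fR {α : Type*} (f : α → Bool) : α → ℝ := fun x => if f x = true then 1 else 0

variable {n r : ℕ}

lemma probTrue_eq (p : ℝ) (f : (HyperedgeSlot n r → Bool) → Bool) :
    probTrue p f = Ex p (fR f) := by
  unfold probTrue
  apply bernoulliProb_eq
  · intro x hx
    have : f x = true := hx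
    simp [fR, this]
  · intro x hx
    have : ¬ f x = true := hx
    simp [fR, this]

lemma Inv_fR {f : (HyperedgeSlot n r → Bool) → Bool} (hf : IsSymmetric f) : Inv (fR f) := by
  intro σ
  funext x
  unfold Rl fR
  have : (fun i => x (slotPerm σ i)) = relabel σ x := rfl
  rw [this, hf σ x]

lemma fR_01 {α : Type*} (f : α → Bool) (x : α) : fR f x = 0 ∨ fR f x = 1 := by
  unfold fR
  split_ifs
  · right; rfl
  · left; rfl

lemma inf_eq (p : ℝ) (f : (HyperedgeSlot n r → Bool) → Bool) (e : HyperedgeSlot n r) :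
    inf p (fR f) e = p * (1 - p) * pivotalInfluence p f e := by
  unfold inf
  rw [N2_single]
  congr 1
  unfold pivotalInfluence
  symm
  apply bernoulliProb_eq
  · intro x hx
    have hx' : f (Function.update x e true) ≠ f (Function.update x e false) := hx
    unfold fR
    cases h1 : f (Function.update x e true) <;> cases h2 : f (Function.update x e false) <;> simp_all
  · intro x hx
    have hx' : ¬ (f (Function.update x e true) ≠ f (Function.update x e false)) := hx
    rw [not_not] at hx'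
    unfold fR
    rw [hx']
    ring

theorem var_bound' {p : ℝ} (h0 : 0 < p) (h1 : p < 1) {f : (HyperedgeSlot n r → Bool) → Bool}
    (hf : IsSymmetric f) (hr : 1 ≤ r) (hrn : r ≤ n)
    {K : ℝ} (hK : 1 < K) (k0 s : ℕ) (hk0 : 1 ≤ k0)
    (hs : (n : ℝ) ^ (r - 1) * cS p ≤ (s : ℝ) ^ (r - 1) * Real.log K) :
    probTrue p f * (1 - probTrue p f) ≤ (r / n * (p * (1 - p) * totalInfluence p f)) *
      (k0 + 2 * ((r - 1 : ℕ) * s : ℝ) * (cS p / (2 * Real.log K) + K / Real.sqrt k0)
        + 2 * n * (K / Real.sqrt k0)) := by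
  have h := var_bound h0 h1 (Inv_fR hf) (fR_01 f) hr hrn hK k0 s hk0 hs
  rw [probTrue_eq]
  have e : ∑ e, inf p (fR f) e = p * (1 - p) * totalInfluence p f := by
    unfold totalInfluence
    rw [Finset.mul_sum]
    exact Finset.sum_congr rfl fun e _ => inf_eq p f e
  rw [e] at h
  exact h

lemma cS_ge {p : ℝ} (h0 : 0 < p) (h1 : p < 1) : 10 ≤ cS p := by
  unfold cS
  have : 0 ≤ Real.log (1 / (p * (1 - p))) := by
    apply Real.log_nonneg
    rw [le_div_iff₀ (mul_pos h0 (by linarith))]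
    nlinarith
  linarith

lemma pq_cS_sq {p : ℝ} (h0 : 0 < p) (h1 : p < 1) : p * (1 - p) * cS p ^ 2 ≤ 256 := by
  have hq : 0 < 1 - p := by linarith
  have hpq : 0 < p * (1 - p) := mul_pos h0 hq
  set u := Real.sqrt (p * (1 - p)) with hu
  have hup : 0 < u := Real.sqrt_pos.2 hpq
  have hu2 : u ^ 2 = p * (1 - p) := Real.sq_sqrt hpq.le
  have h2 : Real.log (1 / u) ≤ 1 / u - 1 := Real.log_le_sub_one_of_pos (by positivity)
  have h3 : cS p = 10 + 16 * Real.log (1 / u) := by
    unfold cS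
    rw [← hu2, one_div, Real.log_inv, one_div, Real.log_inv, Real.log_pow]
    push_cast
    ring
  have h4 : u * cS p ≤ 16 := by
    rw [h3]
    have : u * (16 * Real.log (1 / u)) ≤ u * (16 * (1 / u - 1)) := by gcongr
    have e : u * (16 * (1 / u - 1)) = 16 - 16 * u := by field_simp
    nlinarith
  have h5 : 0 ≤ u * cS p := mul_nonneg hup.le (by linarith [cS_ge h0 h1])
  calc p * (1 - p) * cS p ^ 2 = (u * cS p) ^ 2 := by rw [← hu2]; ring
    _ ≤ 16 ^ 2 := by gcongr
    _ = 256 := by norm_num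

lemma pq_cS {p : ℝ} (h0 : 0 < p) (h1 : p < 1) : p * (1 - p) * cS p ≤ 26 := by
  have h := pq_cS_sq h0 h1
  have h2 := cS_ge h0 h1
  have hpq : 0 < p * (1 - p) := mul_pos h0 (by linarith)
  nlinarith [mul_nonneg (mul_nonneg hpq.le (by linarith : (0:ℝ) ≤ cS p)) (by linarith : (0:ℝ) ≤ cS p - 10)]

lemma totalInfluence_nonneg {p : ℝ} (h0 : 0 < p) (h1 : p < 1)
    (f : (HyperedgeSlot n r → Bool) → Bool) : 0 ≤ totalInfluence p f := by
  unfold totalInfluence
  refine Finset.sum_nonneg fun e _ => ?_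
  have h2 := inf_nonneg h0.le h1.le (fR f) e
  rw [inf_eq] at h2
  have hpq : 0 < p * (1 - p) := mul_pos h0 (by linarith)
  exact nonneg_of_mul_nonneg_right h2 hpq

/-- general bound with the parameters chosen -/
theorem var_bound2 {p : ℝ} (h0 : 0 < p) (h1 : p < 1) {f : (HyperedgeSlot n r → Bool) → Bool}
    (hf : IsSymmetric f) (hr : 2 ≤ r) (hrn : r ≤ n) :
    probTrue p f * (1 - probTrue p f) ≤ (r * (p * (1 - p))) *
      (4 * Real.exp (-(Real.log n / 8)) + 2 * ((r : ℝ) - 1) *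
        ((8 * cS p / Real.log n) ^ (1 / ((r : ℝ) - 1)) + Real.exp (-(Real.log n)))
        * (4 * cS p / Real.log n + Real.exp (-(Real.log n / 8)))) * totalInfluence p f := by
  have hn : 0 < n := by omega
  have hnR : (0 : ℝ) < n := by exact_mod_cast hn
  have hn1 : (1 : ℝ) < n := by exact_mod_cast (by omega : 1 < n)
  have hL : 0 < Real.log n := Real.log_pos hn1
  have hc := cS_ge h0 h1
  have hcp : 0 < cS p := by linarith
  set L := Real.log n with hLdef
  set K := Real.exp (L / 8) with hK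
  have hK1 : 1 < K := by rw [hK]; exact Real.one_lt_exp_iff.2 (by positivity)
  have hlK : Real.log K = L / 8 := Real.log_exp _
  set E := Real.exp (-(L / 8)) with hE
  have hEp : 0 < E := Real.exp_pos _
  have hnexp : (n : ℝ) = Real.exp L := (Real.exp_log hnR).symm
  set k0 := ⌈Real.sqrt n⌉₊ with hk0
  have hsn : 1 ≤ Real.sqrt n := Real.one_le_sqrt.2 hn1.le
  have hk0le : Real.sqrt n ≤ k0 := Nat.le_ceil _
  have hk01 : 1 ≤ k0 := by
    have : (1 : ℝ) ≤ k0 := hsn.trans hk0le
    exact_mod_cast this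
  have hk0ub : (k0 : ℝ) ≤ 2 * Real.sqrt n := by
    have := Nat.ceil_lt_add_one (Real.sqrt_nonneg (n : ℝ))
    linarith
  have hr1 : (1 : ℝ) ≤ (r : ℝ) - 1 := by
    have : (2 : ℝ) ≤ r := by exact_mod_cast hr
    linarith
  have hrcast : ((r - 1 : ℕ) : ℝ) = (r : ℝ) - 1 := by
    rw [Nat.cast_sub (by omega)]; simp
  set β := (8 * cS p / L) ^ (1 / ((r : ℝ) - 1)) with hβ
  have hβ0 : 0 ≤ β := by rw [hβ]; positivity
  have hβpow : β ^ (r - 1) = 8 * cS p / L := by
    rw [hβ, ← Real.rpow_natCast, ← Real.rpow_mul (by positivity), hrcast,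
      one_div_mul_cancel (by linarith), Real.rpow_one]
  set s := ⌈(n : ℝ) * β⌉₊ with hs
  have hsle : (n : ℝ) * β ≤ s := Nat.le_ceil _
  have hsub : (s : ℝ) ≤ n * β + 1 := (Nat.ceil_lt_add_one (by positivity)).le
  have hcond : (n : ℝ) ^ (r - 1) * cS p ≤ (s : ℝ) ^ (r - 1) * Real.log K := by
    rw [hlK]
    calc (n : ℝ) ^ (r - 1) * cS p = ((n : ℝ) * β) ^ (r - 1) * (L / 8) := by
          rw [mul_pow, hβpow]; field_simp
      _ ≤ (s : ℝ) ^ (r - 1) * (L / 8) := by gcongr
  have hmain := var_bound' h0 h1 hf (by omega) hrn hK1 k0 s hk01 hcond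
  have hI := totalInfluence_nonneg h0 h1 f
  have hpq : 0 < p * (1 - p) := mul_pos h0 (by linarith)
  refine hmain.trans ?_
  -- K / sqrt k0 ≤ E
  have hKE : K / Real.sqrt k0 ≤ E := by
    have h4 : Real.exp (L / 4) ≤ Real.sqrt k0 := by
      apply Real.le_sqrt_of_sq_le
      refine le_trans ?_ hk0le
      apply Real.le_sqrt_of_sq_le
      rw [← pow_mul, ← Real.exp_nat_mul, hnexp]
      apply le_of_eq
      congr 1
      push_cast
      ring
    have h5 : 0 < Real.sqrt k0 := lt_of_lt_of_le (Real.exp_pos _) h4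
    rw [div_le_iff₀ h5]
    calc K = E * Real.exp (L / 4) := by
          rw [hK, hE, ← Real.exp_add]; congr 1; ring
      _ ≤ _ := by gcongr
  have hsqE : Real.sqrt n ≤ n * E := by
    apply Real.sqrt_le_iff.2
    refine ⟨by positivity, ?_⟩
    rw [hnexp, hE, ← Real.exp_add, ← Real.exp_nat_mul]
    apply Real.exp_le_exp.2
    push_cast
    linarith
  have hone : 1 ≤ (n : ℝ) * Real.exp (-L) := by
    rw [hnexp, ← Real.exp_add]
    simp
  rw [hlK]
  have hbr : (k0 + 2 * ((r - 1 : ℕ) * s : ℝ) * (cS p / (2 * (L / 8)) + K / Real.sqrt k0)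
        + 2 * n * (K / Real.sqrt k0)) ≤ n * (4 * E + 2 * ((r : ℝ) - 1) *
        (β + Real.exp (-L)) * (4 * cS p / L + E)) := by
    have e1 : cS p / (2 * (L / 8)) = 4 * cS p / L := by field_simp; ring
    rw [hrcast, e1]
    have a1 : (k0 : ℝ) ≤ 2 * (n * E) := by linarith
    have a2 : 2 * (n : ℝ) * (K / Real.sqrt k0) ≤ 2 * n * E := by gcongr
    have a3 : (s : ℝ) ≤ n * (β + Real.exp (-L)) := by linarith
    have a4 : 2 * (((r : ℝ) - 1) * s) * (4 * cS p / L + K / Real.sqrt k0)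
        ≤ 2 * (((r : ℝ) - 1) * (n * (β + Real.exp (-L)))) * (4 * cS p / L + E) := by
      gcongr
    linarith
  calc (r / n * (p * (1 - p) * totalInfluence p f)) *
      (k0 + 2 * ((r - 1 : ℕ) * s : ℝ) * (cS p / (2 * (L / 8)) + K / Real.sqrt k0)
        + 2 * n * (K / Real.sqrt k0))
      ≤ (r / n * (p * (1 - p) * totalInfluence p f)) * (n * (4 * E + 2 * ((r : ℝ) - 1) *
        (β + Real.exp (-L)) * (4 * cS p / L + E))) :=
        mul_le_mul_of_nonneg_left hbr (mul_nonneg (by positivity) (mul_nonneg hpq.le hI))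
    _ = _ := by field_simp

lemma exp_neg_le1 {y : ℝ} (hy : 0 < y) : Real.exp (-y) ≤ 1 / y := by
  rw [Real.exp_neg, ← one_div]
  apply one_div_le_one_div_of_le hy
  linarith [Real.add_one_le_exp y]

lemma exp_neg_le2 {y : ℝ} (hy : 0 < y) : Real.exp (-y) ≤ 2 / y ^ 2 := by
  rw [Real.exp_neg]
  have := Real.quadratic_le_exp_of_nonneg hy.le
  rw [inv_eq_one_div, div_le_div_iff₀ (Real.exp_pos _) (by positivity)]
  nlinarith

/-- the graph case -/
theorem var_graph {p : ℝ} (h0 : 0 < p) (h1 : p < 1) {f : (HyperedgeSlot n 2 → Bool) → Bool}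
    (hf : IsSymmetric f) (hn2 : 2 ≤ n) :
    probTrue p f * (1 - probTrue p f) ≤ 2 ^ 16 / Real.log n ^ 2 * totalInfluence p f := by
  have h := var_bound2 h0 h1 hf le_rfl hn2
  refine h.trans ?_
  have hn1 : (1 : ℝ) < n := by exact_mod_cast (by omega : 1 < n)
  have hL : 0 < Real.log n := Real.log_pos hn1
  set L := Real.log n with hLdef
  have hc := cS_ge h0 h1
  have hI := totalInfluence_nonneg h0 h1 f
  have hpq : 0 < p * (1 - p) := mul_pos h0 (by linarith)
  have hpq4 : p * (1 - p) ≤ 1 / 4 := by nlinarith [sq_nonneg (p - 1 / 2)]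
  have hs2 := pq_cS_sq h0 h1
  have hs1 := pq_cS h0 h1
  set c := cS p with hcdef
  set m := p * (1 - p) with hm
  have e1 : (8 * c / L) ^ (1 / (((2 : ℕ) : ℝ) - 1)) = 8 * c / L := by
    have : (1 / (((2 : ℕ) : ℝ) - 1)) = 1 := by norm_num
    rw [this, Real.rpow_one]
  rw [e1]
  push_cast
  set E := Real.exp (-(L / 8)) with hE
  have hEp : 0 < E := Real.exp_pos _
  have hE1 : E ≤ 8 / L := by
    have := exp_neg_le1 (show 0 < L / 8 by positivity)
    calc E ≤ 1 / (L / 8) := this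
      _ = 8 / L := by field_simp
  have hE2 : E ≤ 128 / L ^ 2 := by
    have := exp_neg_le2 (show 0 < L / 8 by positivity)
    calc E ≤ 2 / (L / 8) ^ 2 := this
      _ = 128 / L ^ 2 := by field_simp; norm_num
  set E' := Real.exp (-L) with hE'
  have hE'p : 0 < E' := Real.exp_pos _
  have hE'1 : E' ≤ 1 / L := exp_neg_le1 hL
  have hE'2 : E' ≤ 1 := by rw [hE']; exact Real.exp_le_one_iff.2 (by linarith)
  apply mul_le_mul_of_nonneg_right _ hI
  have g1 : m * (4 * E) ≤ 128 / L ^ 2 := by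
    calc m * (4 * E) ≤ 1 / 4 * (4 * (128 / L ^ 2)) := by gcongr
      _ = _ := by ring
  have g2 : m * (8 * c / L * (4 * c / L)) ≤ 8192 / L ^ 2 := by
    calc m * (8 * c / L * (4 * c / L)) = 32 * (m * c ^ 2) / L ^ 2 := by field_simp; ring
      _ ≤ 32 * 256 / L ^ 2 := by gcongr
      _ = _ := by norm_num
  have g3 : m * (8 * c / L * E) ≤ 1664 / L ^ 2 := by
    calc m * (8 * c / L * E) = 8 * (m * c) / L * E := by ring
      _ ≤ 8 * 26 / L * (8 / L) := by gcongr
      _ = _ := by field_simp; norm_num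
  have g4 : m * (E' * (4 * c / L)) ≤ 104 / L ^ 2 := by
    calc m * (E' * (4 * c / L)) = 4 * (m * c) / L * E' := by ring
      _ ≤ 4 * 26 / L * (1 / L) := by gcongr
      _ = _ := by field_simp; norm_num
  have g5 : m * (E' * E) ≤ 32 / L ^ 2 := by
    calc m * (E' * E) ≤ 1 / 4 * (1 * (128 / L ^ 2)) := by gcongr
      _ = _ := by ring
  have e2 : 2 * m * (4 * E + 2 * (2 - 1) * (8 * c / L + E') * (4 * c / L + E))
      = 2 * (m * (4 * E)) + 4 * (m * (8 * c / L * (4 * c / L))) + 4 * (m * (8 * c / L * E))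
        + 4 * (m * (E' * (4 * c / L))) + 4 * (m * (E' * E)) := by ring
  rw [e2]
  have e3 : 2 * (128 / L ^ 2) + 4 * (8192 / L ^ 2) + 4 * (1664 / L ^ 2) + 4 * (104 / L ^ 2)
      + 4 * (32 / L ^ 2) ≤ 2 ^ 16 / L ^ 2 := by
    have : 2 * (128 / L ^ 2) + 4 * (8192 / L ^ 2) + 4 * (1664 / L ^ 2) + 4 * (104 / L ^ 2)
      + 4 * (32 / L ^ 2) = 40224 / L ^ 2 := by ring
    rw [this]
    gcongr
    norm_num
  linarith

/-- the hypergraph case -/
theorem var_hyper {p : ℝ} (h0 : 0 < p) (h1 : p < 1) {f : (HyperedgeSlot n r → Bool) → Bool}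
    (hf : IsSymmetric f) (hr : 3 ≤ r) (hrn : r ≤ n) :
    probTrue p f * (1 - probTrue p f) ≤ (r * (128 + 2 * ((r : ℝ) - 1) * 50000))
      / Real.log n ^ ((r : ℝ) / ((r : ℝ) - 1)) * totalInfluence p f := by
  have h := var_bound2 h0 h1 hf (by omega) hrn
  refine h.trans ?_
  have hn3 : (3 : ℝ) ≤ n := by exact_mod_cast (by omega : 3 ≤ n)
  have hr3 : (3 : ℝ) ≤ r := by exact_mod_cast hr
  have hL : 1 ≤ Real.log n := by
    rw [Real.le_log_iff_exp_le (by linarith)]
    have := Real.exp_one_lt_d9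
    linarith
  set L := Real.log n with hLdef
  have hL0 : 0 < L := by linarith
  have hc := cS_ge h0 h1
  have hI := totalInfluence_nonneg h0 h1 f
  have hpq : 0 < p * (1 - p) := mul_pos h0 (by linarith)
  have hpq4 : p * (1 - p) ≤ 1 / 4 := by nlinarith [sq_nonneg (p - 1 / 2)]
  have hs2 := pq_cS_sq h0 h1
  have hs1 := pq_cS h0 h1
  set c := cS p with hcdef
  set m := p * (1 - p) with hm
  have hc0 : 0 < c := by linarith
  set θ := 1 / ((r : ℝ) - 1) with hθ
  have hθ0 : 0 < θ := by rw [hθ]; exact one_div_pos.2 (by linarith)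
  have hθ1 : θ ≤ 1 := by rw [hθ, div_le_one (by linarith)]; linarith
  have hrθ : (r : ℝ) / ((r : ℝ) - 1) = 1 + θ := by
    rw [hθ]
    have : (r : ℝ) - 1 ≠ 0 := by linarith
    field_simp
    ring
  rw [hrθ]
  set M := L ^ (1 + θ) with hM
  have hM0 : 0 < M := Real.rpow_pos_of_pos hL0 _
  have hML : M ≤ L ^ 2 := by
    rw [hM, ← Real.rpow_natCast L 2]
    apply Real.rpow_le_rpow_of_exponent_le hL
    push_cast
    linarith
  set E := Real.exp (-(L / 8)) with hE
  have hEp : 0 < E := Real.exp_pos _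
  have hE2 : E ≤ 128 / M := by
    have := exp_neg_le2 (show 0 < L / 8 by positivity)
    calc E ≤ 2 / (L / 8) ^ 2 := this
      _ = 128 / L ^ 2 := by field_simp; norm_num
      _ ≤ 128 / M := by gcongr
  set E' := Real.exp (-L) with hE'
  have hE'p : 0 < E' := Real.exp_pos _
  have hE'1 : E' ≤ E := by
    rw [hE', hE]; apply Real.exp_le_exp.2; linarith
  have hE'2 : E' ≤ 1 := by rw [hE']; exact Real.exp_le_one_iff.2 (by linarith)
  set β := (8 * c / L) ^ θ with hβ
  have hβ0 : 0 ≤ β := Real.rpow_nonneg (by positivity) _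
  have hβ1 : β ≤ 8 * c := by
    calc β ≤ (8 * c) ^ θ := by
          apply Real.rpow_le_rpow (by positivity) _ hθ0.le
          rw [div_le_iff₀ hL0]
          nlinarith
      _ ≤ (8 * c) ^ (1 : ℝ) := Real.rpow_le_rpow_of_exponent_le (by linarith) hθ1
      _ = 8 * c := Real.rpow_one _
  have hβ2 : β / L ≤ 8 * c / M := by
    have e : β = (8 * c) ^ θ / L ^ θ := by
      rw [hβ, Real.div_rpow (by positivity) hL0.le]
    have e2 : M = L * L ^ θ := by
      rw [hM, Real.rpow_add hL0, Real.rpow_one]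
    rw [e, e2, div_div, mul_comm (L ^ θ) L]
    have : (8 * c) ^ θ ≤ 8 * c := by
      calc (8 * c) ^ θ ≤ (8 * c) ^ (1 : ℝ) := Real.rpow_le_rpow_of_exponent_le (by linarith) hθ1
        _ = 8 * c := Real.rpow_one _
    have h3 : 0 < L * L ^ θ := mul_pos hL0 (Real.rpow_pos_of_pos hL0 _)
    gcongr
  apply mul_le_mul_of_nonneg_right _ hI
  have g1 : m * (4 * E) ≤ 128 / M := by
    calc m * (4 * E) ≤ 1 / 4 * (4 * (128 / M)) := by gcongr
      _ = _ := by ring
  have g2 : m * (β * (4 * c / L)) ≤ 8192 / M := by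
    calc m * (β * (4 * c / L)) = m * (4 * c) * (β / L) := by ring
      _ ≤ m * (4 * c) * (8 * c / M) := by gcongr
      _ = 32 * (m * c ^ 2) / M := by ring
      _ ≤ 32 * 256 / M := by gcongr
      _ = _ := by norm_num
  have g3 : m * (β * E) ≤ 26624 / M := by
    calc m * (β * E) ≤ m * (8 * c * (128 / M)) := by gcongr
      _ = 1024 * (m * c) / M := by ring
      _ ≤ 1024 * 26 / M := by gcongr
      _ = _ := by norm_num
  have g4 : m * (E' * (4 * c / L)) ≤ 13312 / M := by
    have : 4 * c / L ≤ 4 * c := by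
      rw [div_le_iff₀ hL0]
      nlinarith
    calc m * (E' * (4 * c / L)) ≤ m * ((128 / M) * (4 * c)) := by
          gcongr
          exact hE'1.trans hE2
      _ = 512 * (m * c) / M := by ring
      _ ≤ 512 * 26 / M := by gcongr
      _ = _ := by norm_num
  have g5 : m * (E' * E) ≤ 32 / M := by
    calc m * (E' * E) ≤ 1 / 4 * (1 * (128 / M)) := by gcongr
      _ = _ := by ring
  have e2 : (r : ℝ) * m * (4 * E + 2 * ((r : ℝ) - 1) * (β + E') * (4 * c / L + E))
      = r * ((m * (4 * E)) + 2 * ((r : ℝ) - 1) * ((m * (β * (4 * c / L))) + (m * (β * E))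
        + (m * (E' * (4 * c / L))) + (m * (E' * E)))) := by ring
  have e3 : (r : ℝ) * (128 + 2 * ((r : ℝ) - 1) * 50000) / M
      = r * (128 / M + 2 * ((r : ℝ) - 1) * (50000 / M)) := by ring
  rw [e2, e3]
  apply mul_le_mul_of_nonneg_left _ (by linarith)
  have g6 : (m * (β * (4 * c / L))) + (m * (β * E))
        + (m * (E' * (4 * c / L))) + (m * (E' * E)) ≤ 50000 / M := by
    have : 8192 / M + 26624 / M + 13312 / M + 32 / M ≤ 50000 / M := by
      have : 8192 / M + 26624 / M + 13312 / M + 32 / M = 48160 / M := by ring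
      rw [this]
      gcongr
      norm_num
    linarith
  have g7 : 0 ≤ 2 * ((r : ℝ) - 1) := by linarith
  have g8 := mul_le_mul_of_nonneg_left g6 g7
  linarith

end Crest.Agent.SymInf
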