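import Mathlib
import Crest.Agent.SymInf.Final
import Crest.Prelude.Def_RandomGraph
set_option autoImplicit false
set_option linter.unusedSectionVars false
open Finset
open Crest.CombinatoricsR.HypergraphCube
open Crest.CombinatoricsR.RandomGraph

namespace Crest.Agent.SymInf

section russo
variable {ι : Type*} [Fintype ι] [DecidableEq ι]

lemma hasDerivAt_W {t : ℝ} (h0 : 0 < t) (h1 : t < 1) (x : ι → Bool) :
    HasDerivAt (fun t => W t x) (∑ e, W t x * (if x e = true then 1 / t else -(1 / (1 - t)))) t := by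
  have hq : 0 < 1 - t := by linarith
  have h := HasDerivAt.fun_finsetProd (u := Finset.univ)
    (f := fun (i : ι) (t : ℝ) => if x i = true then t else 1 - t)
    (f' := fun i => if x i = true then 1 else -1) (x := t) (by
      intro i _
      by_cases hx : x i = true
      · simp only [hx, if_true]
        exact hasDerivAt_id t
      · simp only [hx]
        exact (hasDerivAt_id t).const_sub 1)
  refine h.congr_deriv ?_
  refine Finset.sum_congr rfl fun e _ => ?_
  have e1 : W t x = (if x e = true then t else 1 - t)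
      * ∏ j ∈ Finset.univ.erase e, (if x j = true then t else 1 - t) := by
    unfold W
    rw [Finset.mul_prod_erase Finset.univ (fun j => if x j = true then t else 1 - t) (Finset.mem_univ e)]
  rw [e1, smul_eq_mul]
  by_cases hx : x e = true
  · simp only [hx, if_true]
    field_simp
  · simp only [hx]
    simp only [Bool.false_eq_true, if_false]
    field_simp

theorem russo {t : ℝ} (h0 : 0 < t) (h1 : t < 1) (F : (ι → Bool) → ℝ) :
    HasDerivAt (fun t => Ex t F)
      (∑ e, Ex t (fun x => F (Function.update x e true) - F (Function.update x e false))) t := by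
  have hq : 0 < 1 - t := by linarith
  have h : HasDerivAt (fun t => ∑ x, W t x * F x)
      (∑ x, (∑ e, W t x * (if x e = true then 1 / t else -(1 / (1 - t)))) * F x) t :=
    HasDerivAt.fun_sum fun x _ => (hasDerivAt_W h0 h1 x).mul_const _
  refine h.congr_deriv ?_
  calc ∑ x, (∑ e, W t x * (if x e = true then 1 / t else -(1 / (1 - t)))) * F x
      = ∑ e, Ex t (fun x => (if x e = true then 1 / t else -(1 / (1 - t))) * F x) := by
        unfold Ex
        rw [Finset.sum_comm]
        refine Finset.sum_congr rfl fun x _ => ?_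
        rw [Finset.sum_mul]
        refine Finset.sum_congr rfl fun e _ => ?_
        ring
    _ = _ := by
        refine Finset.sum_congr rfl fun e _ => ?_
        rw [← Ex_Av t {e}]
        congr 1
        funext x
        rw [Av_single]
        simp only [Function.update_self, if_true, Bool.false_eq_true, if_false]
        field_simp
        ring

end russo

/-- edge slots and 2-subsets -/
def toSlot {n : ℕ} (z : EdgeSlot n) : HyperedgeSlot n 2 :=
  ⟨z.1.toFinset, Sym2.card_toFinset_of_not_isDiag _ z.2⟩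

lemma toSlot_bij {n : ℕ} : Function.Bijective (toSlot : EdgeSlot n → HyperedgeSlot n 2) := by
  constructor
  · intro z z' h
    have h2 : z.1.toFinset = z'.1.toFinset := congrArg Subtype.val h
    apply Subtype.ext
    apply Sym2.ext
    intro i
    rw [← Sym2.mem_toFinset, ← Sym2.mem_toFinset, h2]
  · intro e
    obtain ⟨u, v, huv, he⟩ := Finset.card_eq_two.1 e.2
    refine ⟨⟨s(u, v), by simpa using huv⟩, ?_⟩
    apply Subtype.ext
    show (s(u, v) : Sym2 (Fin n)).toFinset = e.1
    rw [Sym2.toFinset_mk_eq, he]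

/-- the bijection -/
noncomputable def slotEquiv (n : ℕ) : EdgeSlot n ≃ HyperedgeSlot n 2 := Equiv.ofBijective _ toSlot_bij

/-- graph of a slot function -/
noncomputable def gr {n : ℕ} (x : HyperedgeSlot n 2 → Bool) : SimpleGraph (Fin n) :=
  graphOf (fun z => x (slotEquiv n z))

lemma gr_adj {n : ℕ} (x : HyperedgeSlot n 2 → Bool) (u v : Fin n) :
    (gr x).Adj u v ↔ ∃ h : u ≠ v, x ⟨{u, v}, Finset.card_pair h⟩ = true := by
  unfold gr graphOf
  rw [SimpleGraph.fromEdgeSet_adj]
  constructor
  · rintro ⟨⟨h1, h2⟩, h3⟩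
    refine ⟨h3, ?_⟩
    rw [← h2]
    congr 1
    apply Subtype.ext
    show _ = (s(u, v) : Sym2 (Fin n)).toFinset
    rw [Sym2.toFinset_mk_eq]
  · rintro ⟨h, h2⟩
    refine ⟨⟨by simpa using h, ?_⟩, h⟩
    rw [← h2]
    show x _ = x _
    congr 1
    apply Subtype.ext
    show (s(u, v) : Sym2 (Fin n)).toFinset = _
    rw [Sym2.toFinset_mk_eq]

lemma gr_relabel {n : ℕ} (σ : Equiv.Perm (Fin n)) (x : HyperedgeSlot n 2 → Bool) (u v : Fin n) :
    (gr (relabel σ x)).Adj u v ↔ (gr x).Adj (σ u) (σ v) := by
  rw [gr_adj, gr_adj]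
  have key : ∀ h : u ≠ v, ∀ h' : σ u ≠ σ v, relabelSlot σ ⟨{u, v}, Finset.card_pair h⟩
      = (⟨{σ u, σ v}, Finset.card_pair h'⟩ : HyperedgeSlot n 2) := by
    intro h h'
    apply Subtype.ext
    show ({u, v} : Finset (Fin n)).map σ.toEmbedding = {σ u, σ v}
    rw [Finset.map_insert, Finset.map_singleton]
    rfl
  constructor
  · rintro ⟨h, h2⟩
    have h' : σ u ≠ σ v := fun h3 => h (σ.injective h3)
    refine ⟨h', ?_⟩
    rw [← key h h']
    exact h2
  · rintro ⟨h', h2⟩
    have h : u ≠ v := fun h3 => h' (by rw [h3])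
    refine ⟨h, ?_⟩
    rw [← key h h'] at h2
    exact h2

lemma gr_relabel_map {n : ℕ} (σ : Equiv.Perm (Fin n)) (x : HyperedgeSlot n 2 → Bool) :
    gr (relabel σ x) = (gr x).map σ.symm.toEmbedding := by
  ext u v
  rw [gr_relabel, SimpleGraph.map_adj]
  constructor
  · intro h
    exact ⟨σ u, σ v, h, by simp, by simp⟩
  · rintro ⟨u', v', h, rfl, rfl⟩
    simpa using h

lemma gr_eq_map {n : ℕ} (σ : Equiv.Perm (Fin n)) (x : HyperedgeSlot n 2 → Bool) :
    gr x = (gr (relabel σ x)).map σ.toEmbedding := by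
  ext u v
  rw [SimpleGraph.map_adj]
  constructor
  · intro h
    refine ⟨σ.symm u, σ.symm v, ?_, by simp, by simp⟩
    rw [gr_relabel]
    simpa using h
  · rintro ⟨u', v', h, rfl, rfl⟩
    rw [gr_relabel] at h
    exact h

/-- the indicator of a graph property on slot functions -/
noncomputable def fP {n : ℕ} (P : Set (SimpleGraph (Fin n))) (x : HyperedgeSlot n 2 → Bool) : Bool :=
  haveI := Classical.propDecidable (gr x ∈ P)
  decide (gr x ∈ P)

lemma fP_true {n : ℕ} (P : Set (SimpleGraph (Fin n))) (x : HyperedgeSlot n 2 → Bool) :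
    fP P x = true ↔ gr x ∈ P := by
  unfold fP
  simp

lemma fP_symm {n : ℕ} {P : Set (SimpleGraph (Fin n))}
    (hsymm : ∀ σ : Equiv.Perm (Fin n), ∀ G : SimpleGraph (Fin n), G ∈ P → G.map σ.toEmbedding ∈ P) :
    IsSymmetric (fP P) := by
  intro σ x
  rw [Bool.eq_iff_iff, fP_true, fP_true]
  constructor
  · intro h
    rw [gr_eq_map σ x]
    exact hsymm σ _ h
  · intro h
    rw [gr_relabel_map σ x]
    exact hsymm σ.symm _ h

lemma gnp_eq {n : ℕ} (P : Set (SimpleGraph (Fin n))) (p : ℝ) :
    gnpProb n p P = Ex p (fR (fP P)) := by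
  have h1 : gnpProb n p P = Ex p (fun ω : EdgeSlot n → Bool =>
      fR (fP P) (fun e => ω ((slotEquiv n).symm e))) := by
    unfold gnpProb
    have hg : ∀ ω : EdgeSlot n → Bool, gr (fun e => ω ((slotEquiv n).symm e)) = graphOf ω := by
      intro ω
      unfold gr
      congr 1
      funext z
      simp
    apply bernoulliProb_eq
    · intro ω hω
      have : graphOf ω ∈ P := hω
      unfold fR
      rw [if_pos]
      rw [fP_true, hg]
      exact this
    · intro ω hω
      have : ¬ graphOf ω ∈ P := hω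
      unfold fR
      rw [if_neg]
      rw [fP_true, hg]
      exact this
  rw [h1]
  unfold Ex
  refine Fintype.sum_equiv (Equiv.arrowCongr (slotEquiv n) (Equiv.refl Bool)) _ _ fun ω => ?_
  have e : (Equiv.arrowCongr (slotEquiv n) (Equiv.refl Bool)) ω
      = fun e => ω ((slotEquiv n).symm e) := by
    funext e; simp [Equiv.arrowCongr]
  rw [e]
  congr 1
  unfold W
  exact (Equiv.prod_comp (slotEquiv n).symm (fun i => if ω i = true then p else 1 - p)).symm

section mono
variable {n : ℕ} {P : Set (SimpleGraph (Fin n))}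
  (hmono : ∀ G G' : SimpleGraph (Fin n), G ≤ G' → G ∈ P → G' ∈ P)
include hmono

lemma fP_mono {x y : HyperedgeSlot n 2 → Bool} (h : ∀ e, x e = true → y e = true)
    (hx : fP P x = true) : fP P y = true := by
  rw [fP_true] at hx ⊢
  refine hmono _ _ ?_ hx
  intro u v huv
  rw [gr_adj] at huv ⊢
  obtain ⟨h1, h2⟩ := huv
  exact ⟨h1, h _ h2⟩

lemma deriv_eq (t : ℝ) :
    ∑ e, Ex t (fun x : HyperedgeSlot n 2 → Bool => fR (fP P) (Function.update x e true)
      - fR (fP P) (Function.update x e false)) = totalInfluence t (fP P) := by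
  unfold totalInfluence pivotalInfluence
  refine Finset.sum_congr rfl fun e _ => ?_
  symm
  apply bernoulliProb_eq
  · intro x hx
    have hx' : fP P (Function.update x e true) ≠ fP P (Function.update x e false) := hx
    have hm : fP P (Function.update x e false) = true → fP P (Function.update x e true) = true := by
      apply fP_mono hmono
      intro i hi
      by_cases hie : i = e
      · subst hie; simp
      · rw [Function.update_of_ne hie] at hi ⊢
        exact hi
    unfold fR
    cases h1 : fP P (Function.update x e true) <;> cases h2 : fP P (Function.update x e false) <;>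
      simp_all
  · intro x hx
    have hx' : ¬ (fP P (Function.update x e true) ≠ fP P (Function.update x e false)) := hx
    rw [not_not] at hx'
    unfold fR
    rw [hx']
    ring

lemma top_mem (hne : P.Nonempty) (x : HyperedgeSlot n 2 → Bool) (hx : ∀ e, x e = true) :
    fP P x = true := by
  rw [fP_true]
  obtain ⟨G, hG⟩ := hne
  refine hmono G _ ?_ hG
  intro u v huv
  rw [gr_adj]
  exact ⟨huv.ne, hx _⟩

lemma bot_notMem (hnu : P ≠ Set.univ) (x : HyperedgeSlot n 2 → Bool) (hx : ∀ e, x e = false) :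
    fP P x = false := by
  rw [← Bool.not_eq_true, fP_true]
  intro h
  apply hnu
  rw [Set.eq_univ_iff_forall]
  intro G
  refine hmono _ G ?_ h
  intro u v huv
  rw [gr_adj] at huv
  obtain ⟨_, h2⟩ := huv
  rw [hx] at h2
  exact absurd h2 (by simp)

theorem mu_strict (hne : P.Nonempty) (hnu : P ≠ Set.univ) {t : ℝ} (h0 : 0 < t) (h1 : t < 1) :
    0 < Ex t (fR (fP P)) ∧ Ex t (fR (fP P)) < 1 := by
  constructor
  · unfold Ex
    apply Finset.sum_pos'
    · intro x _
      apply mul_nonneg (W_nonneg h0.le h1.le x)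
      rcases fR_01 (fP P) x with h | h <;> rw [h]
      norm_num
    · refine ⟨fun _ => true, Finset.mem_univ _, ?_⟩
      apply mul_pos (W_pos h0 h1 _)
      unfold fR
      rw [if_pos (top_mem hmono hne _ (fun _ => rfl))]
      norm_num
  · have : 0 < ∑ x, W t x * (1 - fR (fP P) x) := by
      apply Finset.sum_pos'
      · intro x _
        apply mul_nonneg (W_nonneg h0.le h1.le x)
        rcases fR_01 (fP P) x with h | h <;> rw [h] <;> norm_num
      · refine ⟨fun _ => false, Finset.mem_univ _, ?_⟩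
        apply mul_pos (W_pos h0 h1 _)
        unfold fR
        rw [if_neg]
        · norm_num
        · rw [bot_notMem hmono hnu _ (fun _ => rfl)]
          simp
    have h2 : ∑ x, W t x * (1 - fR (fP P) x) = 1 - Ex t (fR (fP P)) := by
      have h3 := sum_W t (ι := HyperedgeSlot n 2)
      calc ∑ x, W t x * (1 - fR (fP P) x) = ∑ x, (W t x - W t x * fR (fP P) x) :=
            Finset.sum_congr rfl fun x _ => by ring
        _ = _ := by rw [Finset.sum_sub_distrib, h3]; rfl
    linarith

end mono

theorem W_zero {ι : Type*} [Fintype ι] [DecidableEq ι] (F : (ι → Bool) → ℝ) :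
    Ex 0 F = F (fun _ => false) := by
  unfold Ex
  rw [Finset.sum_eq_single (fun _ => false)]
  · simp [W]
  · intro x _ hx
    have : ∃ i, x i = true := by
      by_contra hcon
      push Not at hcon
      apply hx
      funext i
      simpa using hcon i
    obtain ⟨i, hi⟩ := this
    have : W 0 x = 0 := by
      unfold W
      apply Finset.prod_eq_zero (Finset.mem_univ i)
      simp [hi]
    rw [this, zero_mul]
  · intro h; exact absurd (Finset.mem_univ _) h

theorem W_one {ι : Type*} [Fintype ι] [DecidableEq ι] (F : (ι → Bool) → ℝ) :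
    Ex 1 F = F (fun _ => true) := by
  unfold Ex
  rw [Finset.sum_eq_single (fun _ => true)]
  · simp [W]
  · intro x _ hx
    have : ∃ i, x i = false := by
      by_contra hcon
      push Not at hcon
      apply hx
      funext i
      simpa using hcon i
    obtain ⟨i, hi⟩ := this
    have : W 1 x = 0 := by
      unfold W
      apply Finset.prod_eq_zero (Finset.mem_univ i)
      simp [hi]
    rw [this, zero_mul]
  · intro h; exact absurd (Finset.mem_univ _) h

theorem threshold (n : ℕ) (hn : 2 ≤ n)
    (P : Set (SimpleGraph (Fin n)))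
    (hsymm : ∀ σ : Equiv.Perm (Fin n), ∀ G : SimpleGraph (Fin n), G ∈ P → G.map σ.toEmbedding ∈ P)
    (hmono : ∀ G G' : SimpleGraph (Fin n), G ≤ G' → G ∈ P → G' ∈ P)
    (hne : P.Nonempty) (hnu : P ≠ Set.univ) (ε : ℝ) (hε0 : 0 < ε) (hε : ε < 1 / 2)
    (p q : ℝ) (hp0 : 0 ≤ p) (hq1 : q ≤ 1)
    (hp : ε ≤ gnpProb n p P)
    (hq : p + 2 ^ 19 / Real.log n ^ 2 * Real.log (1 / (2 * ε)) ≤ q) :
    1 - ε ≤ gnpProb n q P := by
  rw [gnp_eq] at hp ⊢
  have hn1 : (1 : ℝ) < n := by exact_mod_cast (by omega : 1 < n)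
  have hL : 0 < Real.log n := Real.log_pos hn1
  set L := Real.log n with hLdef
  have hy : 1 < 1 / (2 * ε) := by
    rw [lt_div_iff₀ (by positivity)]; linarith
  have hly : 0 < Real.log (1 / (2 * ε)) := Real.log_pos hy
  have hpq : p < q := by
    have : 0 < 2 ^ 19 / L ^ 2 * Real.log (1 / (2 * ε)) := by positivity
    linarith
  by_cases hq1' : q = 1
  · rw [hq1', W_one]
    unfold fR
    rw [if_pos (top_mem hmono hne _ (fun _ => rfl))]
    linarith
  have hq1'' : q < 1 := lt_of_le_of_ne hq1 hq1'
  have hp0' : 0 < p := by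
    rcases hp0.lt_or_eq with h | h
    · exact h
    · exfalso
      rw [← h, W_zero] at hp
      unfold fR at hp
      rw [if_neg] at hp
      · linarith
      · rw [bot_notMem hmono hnu _ (fun _ => rfl)]
        simp
  by_contra hcon
  push Not at hcon
  set μ : ℝ → ℝ := fun t => Ex t (fR (fP P)) with hμ
  have hderiv : ∀ t, 0 < t → t < 1 → HasDerivAt μ (totalInfluence t (fP P)) t := by
    intro t h0 h1
    have := russo h0 h1 (fR (fP P))
    rw [deriv_eq hmono] at this
    exact this
  have hstrict : ∀ t, 0 < t → t < 1 → 0 < μ t ∧ μ t < 1 := fun t h0 h1 =>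
    mu_strict hmono hne hnu h0 h1
  set Φ : ℝ → ℝ := fun t => Real.log (μ t) - Real.log (1 - μ t) with hΦ
  have hΦd : ∀ t, 0 < t → t < 1 → HasDerivAt Φ (totalInfluence t (fP P) / (μ t * (1 - μ t))) t := by
    intro t h0 h1
    obtain ⟨a1, a2⟩ := hstrict t h0 h1
    have h3 := hderiv t h0 h1
    have h4 := (h3.log a1.ne').sub ((h3.const_sub 1).log (by linarith))
    refine h4.congr_deriv ?_
    have : (1 - μ t) ≠ 0 := by linarith
    field_simp
    ring
  have hlow : ∀ t, 0 < t → t < 1 → L ^ 2 / 2 ^ 16 ≤ totalInfluence t (fP P) / (μ t * (1 - μ t)) := by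
    intro t h0 h1
    obtain ⟨a1, a2⟩ := hstrict t h0 h1
    have hv := var_graph h0 h1 (fP_symm hsymm) hn
    rw [probTrue_eq] at hv
    have hv' : μ t * (1 - μ t) ≤ 2 ^ 16 / L ^ 2 * totalInfluence t (fP P) := hv
    have hpos : 0 < μ t * (1 - μ t) := mul_pos a1 (by linarith)
    rw [le_div_iff₀ hpos]
    calc L ^ 2 / 2 ^ 16 * (μ t * (1 - μ t)) ≤ L ^ 2 / 2 ^ 16 * (2 ^ 16 / L ^ 2 * totalInfluence t (fP P)) := by
          gcongr
      _ = _ := by field_simp
  have hmvt := Convex.mul_sub_le_image_sub_of_le_deriv (convex_Icc p q) (f := Φ)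
    (fun t ht => (hΦd t (by linarith [ht.1]) (by linarith [ht.2])).continuousAt.continuousWithinAt)
    (fun t ht => by
      rw [interior_Icc] at ht
      exact (hΦd t (by linarith [ht.1]) (by linarith [ht.2])).differentiableAt.differentiableWithinAt)
    (C := L ^ 2 / 2 ^ 16) (fun t ht => by
      rw [interior_Icc] at ht
      rw [(hΦd t (by linarith [ht.1]) (by linarith [ht.2])).deriv]
      exact hlow t (by linarith [ht.1]) (by linarith [ht.2])) p ⟨le_rfl, hpq.le⟩ q ⟨hpq.le, le_rfl⟩ hpq.le
  obtain ⟨a1, a2⟩ := hstrict p hp0' (by linarith)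
  obtain ⟨b1, b2⟩ := hstrict q (by linarith) hq1''
  have hcon' : μ q < 1 - ε := hcon
  have hp' : ε ≤ μ p := hp
  have c1 : Real.log ε ≤ Real.log (μ p) := Real.log_le_log hε0 hp'
  have c2 : Real.log (1 - μ p) ≤ Real.log (1 - ε) := Real.log_le_log (by linarith) (by linarith)
  have c3 : Real.log (μ q) ≤ Real.log (1 - ε) := Real.log_le_log b1 hcon'.le
  have c4 : Real.log ε ≤ Real.log (1 - μ q) := Real.log_le_log hε0 (by linarith)
  have c5 : Φ q - Φ p ≤ 2 * (Real.log (1 - ε) - Real.log ε) := by
    show Real.log (μ q) - Real.log (1 - μ q) - (Real.log (μ p) - Real.log (1 - μ p)) ≤ _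
    linarith
  have c6 : 8 * Real.log (1 / (2 * ε)) ≤ L ^ 2 / 2 ^ 16 * (q - p) := by
    have : 2 ^ 19 / L ^ 2 * Real.log (1 / (2 * ε)) ≤ q - p := by linarith
    calc 8 * Real.log (1 / (2 * ε)) = L ^ 2 / 2 ^ 16 * (2 ^ 19 / L ^ 2 * Real.log (1 / (2 * ε))) := by
          field_simp
          norm_num
      _ ≤ _ := by gcongr
  have c7 : Real.log (1 - ε) - Real.log ε ≤ 2 * Real.log (1 / (2 * ε)) := by
    rw [← Real.log_div (by linarith) hε0.ne']
    have : 2 * Real.log (1 / (2 * ε)) = Real.log ((1 / (2 * ε)) ^ 2) := by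
      rw [Real.log_pow]; norm_num
    rw [this]
    apply Real.log_le_log (div_pos (by linarith) hε0)
    rw [div_pow, one_pow, div_le_div_iff₀ hε0 (by positivity)]
    nlinarith [sq_nonneg (2 * ε - 1)]
  linarith

end Crest.Agent.SymInf
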